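import Mathlib

/-! Combinatorics of abstract systems of segments. -/

namespace Vale.Agent.P201

open Function Finset

/-- abstract system of segments -/
structure Abs (ι X : Type) where
  len : ι → ℕ
  β : ι → ι
  sd : ι → Bool
  u : ι × ℕ → X
  e : X → ℕ

theorem sum_levels {Y : Type} (s : Finset Y) (f : Y → ℕ) (J : ℕ) :
    ∑ t ∈ Icc 1 J, (s.filter fun x => t ≤ f x).card = ∑ x ∈ s, min (f x) J := by
  simp only [card_filter]
  rw [sum_comm]
  refine sum_congr rfl fun x _ => ?_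
  rw [← card_filter]
  have : (Icc 1 J).filter (fun t => t ≤ f x) = Icc 1 (min (f x) J) := by
    ext t; simp only [mem_filter, mem_Icc, le_min_iff]; omega
  rw [this]; simp

/-- next position -/
def su {ι : Type} (p : ι × ℕ) : ι × ℕ := (p.1, p.2 + 1)

/-- previous position -/
def pr {ι : Type} (p : ι × ℕ) : ι × ℕ := (p.1, p.2 - 1)

namespace Abs

variable {ι X : Type} [Fintype ι] [DecidableEq ι] [DecidableEq X] (A : Abs ι X)

/-- positions -/
def PP : Finset (ι × ℕ) :=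
  (univ.sigma fun σ => range (A.len σ + 1)).map (Equiv.sigmaEquivProd ι ℕ).toEmbedding

/-- darts -/
def Dt : Finset (ι × ℕ) :=
  (univ.sigma fun σ => range (A.len σ)).map (Equiv.sigmaEquivProd ι ℕ).toEmbedding

/-- side of a position -/
def side (p : ι × ℕ) : Bool := xor (A.sd p.1) (Nat.bodd p.2)

/-- tail position of a dart -/
def tp (d : ι × ℕ) : ι × ℕ := if A.side d then d else su d

/-- head position of a dart -/
def hp (d : ι × ℕ) : ι × ℕ := if A.side d then su d else d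

/-- abstract edge -/
def ae (d : ι × ℕ) : X × X := (A.u (A.tp d), A.u (A.hp d))

/-- multiplicity of a dart -/
def m (d : ι × ℕ) : ℕ := (A.Dt.filter fun d' => A.ae d' = A.ae d).card

/-- multiplicity of a vertex -/
def c (v : X) : ℕ := (A.PP.filter fun p => A.u p = v).card

/-- regular positions -/
def Reg (p : ι × ℕ) : Prop := ∀ p' ∈ A.PP, A.u p' = A.u p → (0 < p'.2 ∧ p'.2 < A.len p'.1) ∧
  ((A.u (pr p') = A.u (pr p) ∧ A.u (su p') = A.u (su p)) ∨
    (A.u (pr p') = A.u (su p) ∧ A.u (su p') = A.u (pr p)))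

instance (p : ι × ℕ) : Decidable (A.Reg p) := by unfold Reg; infer_instance

/-- exceptional positions -/
def Ex : Finset (ι × ℕ) := A.PP.filter fun p => ¬ A.Reg p

/-- mirror position -/
def mp (p : ι × ℕ) : ι × ℕ := (A.β p.1, A.len p.1 - p.2)

/-- rank of a vertex -/
def rk (v : X) : ℕ ×ₗ ℕ := toLex (Fintype.card ι - A.c v, A.e v)

/-- free positions -/
def FP : Finset (ι × ℕ) := A.PP.filter fun p => A.side p = false ∧ A.Reg p ∧
  ∀ p' ∈ A.PP, A.u p' = A.u p → A.Reg (A.mp p') ∧ ¬ A.rk (A.u (A.mp p')) < A.rk (A.u p)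

/-- darts of level t -/
def Dl (t : ℕ) : Finset (ι × ℕ) := A.Dt.filter fun d => t ≤ A.m d

/-- number of edges of level t -/
def k (t : ℕ) : ℕ := ((A.Dl t).image A.ae).card

/-- tails of level t -/
def V1 (t : ℕ) : Finset X := (A.Dl t).image fun d => A.u (A.tp d)

/-- heads of level t -/
def V2 (t : ℕ) : Finset X := (A.Dl t).image fun d => A.u (A.hp d)

/-- free vertices of level t -/
def Fr (t : ℕ) : Finset X := (A.FP.filter fun p => t ≤ A.c (A.u p)).image A.u

/-- axioms of an abstract system -/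
structure Ok : Prop where
  inj : ∀ p ∈ A.PP, ∀ p' ∈ A.PP, A.u p = A.u p' → p.1 = p'.1 → p = p'
  sdu : ∀ p ∈ A.PP, ∀ p' ∈ A.PP, A.u p = A.u p' → A.side p = A.side p'
  blen : ∀ σ, A.len (A.β σ) = A.len σ
  bb : ∀ σ, A.β (A.β σ) = σ
  msd : ∀ p : ι × ℕ, 0 < p.2 → p.2 < A.len p.1 → A.side (A.mp p) = A.side p
  mne : ∀ p : ι × ℕ, 0 < p.2 → p.2 < A.len p.1 → A.u (A.mp p) ≠ A.u p
  einj : Injective A.e

variable {A}

omit [DecidableEq ι] [DecidableEq X] in
theorem mem_PP {p : ι × ℕ} : p ∈ A.PP ↔ p.2 ≤ A.len p.1 := by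
  simp [PP, mem_map_equiv, Nat.lt_succ_iff]

omit [DecidableEq ι] [DecidableEq X] in
theorem mem_Dt {p : ι × ℕ} : p ∈ A.Dt ↔ p.2 < A.len p.1 := by
  simp [Dt, mem_map_equiv]

omit [DecidableEq ι] [DecidableEq X] in
theorem card_Dt : A.Dt.card = ∑ σ, A.len σ := by simp [Dt, card_sigma]

omit [Fintype ι] [DecidableEq ι] [DecidableEq X] in
theorem side_su (p : ι × ℕ) : A.side (su p) = !A.side p := by
  simp [side, su]

omit [Fintype ι] [DecidableEq ι] in
theorem su_pr {p : ι × ℕ} (h : 0 < p.2) : su (pr p) = p := by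
  ext
  · rfl
  · simp only [su, pr]; omega

omit [Fintype ι] [DecidableEq ι] [DecidableEq X] in
theorem side_pr {p : ι × ℕ} (h : 0 < p.2) : A.side (pr p) = !A.side p := by
  have := side_su (A := A) (pr p)
  rw [su_pr h] at this
  simp [this]

omit [DecidableEq ι] [DecidableEq X] in
theorem su_mem {d : ι × ℕ} (h : d ∈ A.Dt) : su d ∈ A.PP := by
  rw [mem_Dt] at h; rw [mem_PP]; exact h

omit [DecidableEq ι] [DecidableEq X] in
theorem Dt_PP {d : ι × ℕ} (h : d ∈ A.Dt) : d ∈ A.PP := by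
  rw [mem_Dt] at h; rw [mem_PP]; exact h.le

omit [DecidableEq ι] [DecidableEq X] in
theorem tp_mem {d : ι × ℕ} (h : d ∈ A.Dt) : A.tp d ∈ A.PP := by
  unfold tp; split_ifs
  exacts [Dt_PP h, su_mem h]

omit [DecidableEq ι] [DecidableEq X] in
theorem hp_mem {d : ι × ℕ} (h : d ∈ A.Dt) : A.hp d ∈ A.PP := by
  unfold hp; split_ifs
  exacts [su_mem h, Dt_PP h]

omit [Fintype ι] [DecidableEq ι] [DecidableEq X] in
theorem side_tp (d : ι × ℕ) : A.side (A.tp d) = true := by
  unfold tp; split_ifs with c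
  · exact c
  · simpa [side_su] using c

omit [Fintype ι] [DecidableEq ι] [DecidableEq X] in
theorem side_hp (d : ι × ℕ) : A.side (A.hp d) = false := by
  unfold hp; split_ifs with c
  · simpa [side_su] using c
  · simpa using c

omit [Fintype ι] [DecidableEq ι] [DecidableEq X] in
theorem tp_fst (d : ι × ℕ) : (A.tp d).1 = d.1 := by unfold tp; split_ifs <;> rfl

omit [Fintype ι] [DecidableEq ι] [DecidableEq X] in
theorem hp_fst (d : ι × ℕ) : (A.hp d).1 = d.1 := by unfold hp; split_ifs <;> rfl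

omit [Fintype ι] [DecidableEq ι] [DecidableEq X] in
theorem tphp_inj {d d' : ι × ℕ} (h1 : A.tp d = A.tp d') (h2 : A.hp d = A.hp d') : d = d' := by
  unfold tp at h1; unfold hp at h2
  split_ifs at h1 h2 <;> simp only [su, Prod.ext_iff] at h1 h2 ⊢ <;> omega

omit [Fintype ι] [DecidableEq ι] [DecidableEq X] in
theorem ae_eq (d : ι × ℕ) :
    A.ae d = if A.side d then (A.u d, A.u (su d)) else (A.u (su d), A.u d) := by
  unfold ae tp hp; split_ifs <;> rfl

omit [Fintype ι] [DecidableEq ι] [DecidableEq X] in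
theorem ae_pr {p : ι × ℕ} (h : 0 < p.2) :
    A.ae (pr p) = if A.side p then (A.u p, A.u (pr p)) else (A.u (pr p), A.u p) := by
  rw [ae_eq, side_pr h, su_pr h]
  cases A.side p <;> simp

omit [DecidableEq ι] [DecidableEq X] in
theorem Ok.ae_inj (H : A.Ok) {d d' : ι × ℕ} (h : d ∈ A.Dt) (h' : d' ∈ A.Dt)
    (e : A.ae d = A.ae d') (e' : d.1 = d'.1) : d = d' :=
  tphp_inj (H.inj _ (tp_mem h) _ (tp_mem h') (Prod.ext_iff.1 e).1 (by rw [tp_fst, tp_fst, e']))
    (H.inj _ (hp_mem h) _ (hp_mem h') (Prod.ext_iff.1 e).2 (by rw [hp_fst, hp_fst, e']))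

omit [DecidableEq ι] in
theorem Ok.c_le (H : A.Ok) (v : X) : A.c v ≤ Fintype.card ι := by
  refine card_le_card_of_injOn (t := univ) Prod.fst (fun _ _ => mem_univ _) ?_
  intro p hp p' hp' e
  simp only [coe_filter, Set.mem_setOf_eq] at hp hp'
  exact H.inj _ hp.1 _ hp'.1 (hp.2.trans hp'.2.symm) e

omit [DecidableEq ι] in
theorem Ok.m_le_tp (H : A.Ok) (d : ι × ℕ) : A.m d ≤ A.c (A.u (A.tp d)) := by
  refine card_le_card_of_injOn A.tp ?_ ?_
  · intro p hp
    simp only [coe_filter, Set.mem_setOf_eq] at hp ⊢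
    exact ⟨tp_mem hp.1, (Prod.ext_iff.1 hp.2).1⟩
  · intro p hp p' hp' e
    simp only [coe_filter, Set.mem_setOf_eq] at hp hp'
    exact H.ae_inj hp.1 hp'.1 (hp.2.trans hp'.2.symm) (by rw [← tp_fst, e, tp_fst])

omit [DecidableEq ι] in
theorem Ok.m_le_hp (H : A.Ok) (d : ι × ℕ) : A.m d ≤ A.c (A.u (A.hp d)) := by
  refine card_le_card_of_injOn A.hp ?_ ?_
  · intro p hp
    simp only [coe_filter, Set.mem_setOf_eq] at hp ⊢
    exact ⟨hp_mem hp.1, (Prod.ext_iff.1 hp.2).2⟩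
  · intro p hp p' hp' e
    simp only [coe_filter, Set.mem_setOf_eq] at hp hp'
    exact H.ae_inj hp.1 hp'.1 (hp.2.trans hp'.2.symm) (by rw [← hp_fst, e, hp_fst])

omit [DecidableEq ι] in
theorem Ok.m_le_self (H : A.Ok) (d : ι × ℕ) : A.m d ≤ A.c (A.u d) := by
  have h1 := H.m_le_tp d
  have h2 := H.m_le_hp d
  unfold tp at h1; unfold hp at h2
  split_ifs at h1 h2 <;> assumption

omit [DecidableEq ι] [DecidableEq X] in
theorem Reg.int {p : ι × ℕ} (h : A.Reg p) (hp : p ∈ A.PP) : 0 < p.2 ∧ p.2 < A.len p.1 :=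
  (h p hp rfl).1

omit [DecidableEq ι] [DecidableEq X] in
theorem Reg.cls {p p' : ι × ℕ} (h : A.Reg p) (hp : p' ∈ A.PP) (e : A.u p' = A.u p) :
    A.Reg p' := by
  intro q hq e'
  obtain ⟨a1, a2⟩ := h q hq (e'.trans e)
  refine ⟨a1, ?_⟩
  rcases (h p' hp e).2 with b | b <;> rcases a2 with a2 | a2 <;> simp [a2.1, a2.2, b.1, b.2]

omit [DecidableEq ι] [DecidableEq X] in
theorem Ok.reg_ae (H : A.Ok) {p p' : ι × ℕ} (h : A.Reg p) (hp : p ∈ A.PP) (hp' : p' ∈ A.PP)
    (e : A.u p' = A.u p) : (A.ae (pr p') = A.ae (pr p) ∧ A.ae p' = A.ae p) ∨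
      (A.ae (pr p') = A.ae p ∧ A.ae p' = A.ae (pr p)) := by
  obtain ⟨a1, a2⟩ := h p' hp' e
  rw [ae_pr a1.1, ae_pr (h.int hp).1, ae_eq, ae_eq, H.sdu _ hp' _ hp e, e]
  rcases a2 with a2 | a2 <;> simp [a2.1, a2.2]

omit [DecidableEq ι] in
theorem Ok.reg_m (H : A.Ok) {p : ι × ℕ} (h : A.Reg p) (hp : p ∈ A.PP) {d : ι × ℕ}
    (hd : d = p ∨ d = pr p) : A.c (A.u p) ≤ A.m d := by
  refine card_le_card_of_injOn (fun p' => if A.ae p' = A.ae d then p' else pr p') ?_ ?_
  · intro p' hp'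
    simp only [coe_filter, Set.mem_setOf_eq] at hp' ⊢
    obtain ⟨a1, -⟩ := h p' hp'.1 hp'.2
    split_ifs with c
    · exact ⟨mem_Dt.2 a1.2, c⟩
    · refine ⟨mem_Dt.2 (by simp only [pr]; omega), ?_⟩
      rcases H.reg_ae h hp hp'.1 hp'.2 with b | b <;> rcases hd with rfl | rfl
      · exact absurd b.2 c
      · exact b.1
      · exact b.1
      · exact absurd b.2 c
  · intro a ha b hb e
    simp only [coe_filter, Set.mem_setOf_eq] at ha hb
    refine H.inj _ ha.1 _ hb.1 (ha.2.trans hb.2.symm) ?_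
    have := congrArg Prod.fst e
    dsimp only at this
    split_ifs at this <;> exact this

omit [DecidableEq ι] in
theorem Ok.T1 (H : A.Ok) : A.Dt.card ≤ ∑ t ∈ Icc 1 (Fintype.card ι), A.k t := by
  rw [card_eq_sum_card_image A.ae]
  have := sum_levels (A.Dt.image A.ae) (fun a => (A.Dt.filter fun d => A.ae d = a).card)
    (Fintype.card ι)
  refine le_trans (le_of_eq (sum_congr rfl fun a ha => ?_)) (this.symm.le.trans ?_)
  · obtain ⟨d, -, rfl⟩ := mem_image.1 ha
    exact (min_eq_left ((H.m_le_tp d).trans (H.c_le _))).symm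
  · refine sum_le_sum fun t _ => card_le_card fun a ha => ?_
    obtain ⟨h1, h2⟩ := mem_filter.1 ha
    obtain ⟨d, hd, rfl⟩ := mem_image.1 h1
    exact mem_image_of_mem _ (mem_filter.2 ⟨hd, h2⟩)

omit [DecidableEq ι] [DecidableEq X] in
theorem Ok.mp_mp (H : A.Ok) {p : ι × ℕ} (hp : p ∈ A.PP) : A.mp (A.mp p) = p := by
  rw [mem_PP] at hp
  ext
  · exact H.bb _
  · simp only [mp, H.blen]; omega

omit [DecidableEq ι] [DecidableEq X] in
theorem Ok.mp_mem (H : A.Ok) (p : ι × ℕ) : A.mp p ∈ A.PP := by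
  rw [mem_PP]; simp only [mp, H.blen]; omega

theorem Ok.T2 (H : A.Ok) : 4 * ∑ t ∈ Icc 1 (Fintype.card ι), (A.Fr t).card ≤ A.Dt.card := by
  have h1 : ∑ t ∈ Icc 1 (Fintype.card ι), (A.Fr t).card ≤ A.FP.card := by
    rw [card_eq_sum_card_image A.u]
    have := sum_levels (A.FP.image A.u) A.c (Fintype.card ι)
    refine le_trans (sum_le_sum fun t _ => card_le_card fun a ha => ?_)
      (this.le.trans (sum_le_sum fun v hv => (min_le_left _ _).trans (card_le_card ?_)))
    · obtain ⟨p, hp, rfl⟩ := mem_image.1 ha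
      obtain ⟨h1, h2⟩ := mem_filter.1 hp
      exact mem_filter.2 ⟨mem_image_of_mem _ h1, h2⟩
    · obtain ⟨p, hp, rfl⟩ := mem_image.1 hv
      intro q hq
      obtain ⟨b1, b2⟩ := mem_filter.1 hq
      obtain ⟨a1, a2, a3, a4⟩ := mem_filter.1 hp
      refine mem_filter.2 ⟨mem_filter.2 ⟨b1, ?_, a3.cls b1 b2, ?_⟩, b2⟩
      · rw [H.sdu _ b1 _ a1 b2, a2]
      · rw [b2]; exact a4
  let I := A.PP.filter fun p => A.side p = false ∧ 0 < p.2 ∧ p.2 < A.len p.1
  have h2 : 2 * A.FP.card ≤ I.card := by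
    have e1 : (A.FP.image A.mp).card = A.FP.card := card_image_of_injOn fun p hp q hq e => by
      rw [← H.mp_mp (mem_filter.1 hp).1, e, H.mp_mp (mem_filter.1 hq).1]
    have e2 : Disjoint A.FP (A.FP.image A.mp) := by
      rw [disjoint_right]
      intro q hq hq'
      obtain ⟨p, hp, rfl⟩ := mem_image.1 hq
      obtain ⟨a1, -, a3, a4⟩ := mem_filter.1 hp
      obtain ⟨b1, -, -, b4⟩ := mem_filter.1 hq'
      have c1 := (a4 p a1 rfl).2
      have c2 := (b4 _ b1 rfl).2
      rw [H.mp_mp a1] at c2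
      have c3 := le_antisymm (not_lt.1 c1) (not_lt.1 c2)
      exact H.mne p (a3.int a1).1 (a3.int a1).2 (H.einj (Prod.ext_iff.1 (toLex.injective c3)).2).symm
    rw [two_mul]
    nth_rw 2 [← e1]
    rw [← card_union_of_disjoint e2]
    refine card_le_card (union_subset (fun p hp => ?_) fun q hq => ?_)
    · obtain ⟨a1, a2, a3, -⟩ := mem_filter.1 hp
      exact mem_filter.2 ⟨a1, a2, a3.int a1⟩
    · obtain ⟨p, hp, rfl⟩ := mem_image.1 hq
      obtain ⟨a1, a2, a3, a4⟩ := mem_filter.1 hp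
      exact mem_filter.2 ⟨H.mp_mem p, by rw [H.msd p (a3.int a1).1 (a3.int a1).2, a2],
        (a4 p a1 rfl).1.int (H.mp_mem p)⟩
  have h3 : 2 * I.card ≤ A.Dt.card := by
    have e1 : (I.image pr).card = I.card := card_image_of_injOn fun p hp q hq e => by
      rw [← su_pr (mem_filter.1 hp).2.2.1, e, su_pr (mem_filter.1 hq).2.2.1]
    have e2 : Disjoint I (I.image pr) := by
      rw [disjoint_right]
      intro q hq hq'
      obtain ⟨p, hp, rfl⟩ := mem_image.1 hq
      have a := (mem_filter.1 hq').2.1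
      rw [side_pr (mem_filter.1 hp).2.2.1, (mem_filter.1 hp).2.1] at a
      simp at a
    rw [two_mul]
    nth_rw 2 [← e1]
    rw [← card_union_of_disjoint e2]
    refine card_le_card (union_subset (fun p hp => ?_) fun q hq => ?_)
    · exact mem_Dt.2 (mem_filter.1 hp).2.2.2
    · obtain ⟨p, hp, rfl⟩ := mem_image.1 hq
      have := (mem_filter.1 hp).2.2
      exact mem_Dt.2 (by simp only [pr]; omega)
  omega

theorem Ok.T3 (H : A.Ok) :
    A.Dt.card ≤ 2 * (∑ t ∈ Icc 1 (Fintype.card ι), (A.V1 t).card + A.Ex.card) := by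
  let P1 := A.PP.filter fun p => A.side p = true ∧ A.Reg p
  have h1 : A.Dt.card ≤ ((P1 ∪ A.Ex) ×ˢ (univ : Finset Bool)).card := by
    refine card_le_card_of_injOn (fun d => (A.tp d, A.side d)) ?_ ?_
    · intro d hd
      simp only [coe_product, Set.mem_prod, coe_union, Set.mem_union, mem_coe, mem_univ, and_true,
        P1, Ex, mem_filter]
      have := tp_mem hd
      have := side_tp (A := A) d
      tauto
    · intro d _ d' _ e
      obtain ⟨e1, e2⟩ := Prod.ext_iff.1 e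
      dsimp only at e1 e2
      unfold tp at e1
      rw [e2] at e1
      split_ifs at e1
      · exact e1
      · simp only [su, Prod.ext_iff] at e1 ⊢; exact ⟨e1.1, by omega⟩
  have h2 : P1.card ≤ ∑ t ∈ Icc 1 (Fintype.card ι), (A.V1 t).card := by
    rw [card_eq_sum_card_image A.u]
    have := sum_levels (P1.image A.u) A.c (Fintype.card ι)
    refine le_trans (sum_le_sum fun v _ => ?_)
      (this.symm.le.trans (sum_le_sum fun t _ => card_le_card fun v hv => ?_))
    · rw [min_eq_left (H.c_le v)]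
      exact card_le_card (monotone_filter_left _ (filter_subset _ _))
    · obtain ⟨b1, b2⟩ := mem_filter.1 hv
      obtain ⟨p, hp, rfl⟩ := mem_image.1 b1
      obtain ⟨a1, a2, a3⟩ := mem_filter.1 hp
      refine mem_image.2 ⟨p, mem_filter.2 ⟨mem_Dt.2 (a3.int a1).2,
        b2.trans (H.reg_m a3 a1 (Or.inl rfl))⟩, ?_⟩
      simp [tp, a2]
  rw [card_product] at h1
  have := card_union_le P1 A.Ex
  simp only [card_univ, Fintype.card_bool] at h1
  omega

theorem Ok.T4 (H : A.Ok) (O : Finset (ι × ℕ)) (hO : O ⊆ A.Dt) (nx : ι × ℕ → ι × ℕ)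
    (h1 : ∀ d ∈ A.Dt, d ∉ O → nx d ∈ A.Dt ∧ A.u (nx d) = A.u (su d) ∧ A.ae (nx d) ≠ A.ae d)
    (h2 : ∀ d ∈ A.Dt, d ∉ O → ∀ d' ∈ A.Dt, d' ∉ O → nx d = nx d' → d = d') :
    ∑ t ∈ Icc 1 (Fintype.card ι), ((A.V1 t).card + (A.V2 t).card) ≤ A.Dt.card + O.card := by
  let f : X → ℕ := fun v => (A.Dt.filter fun d => A.u d = v).card +
    (O.filter fun d => A.u (su d) = v).card
  have key : ∀ d ∈ A.Dt, ∀ v, (v = A.u (A.tp d) ∨ v = A.u (A.hp d)) → A.m d ≤ f v := by
    intro d hd v hv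
    simp only [f]
    rw [← card_disjSum]
    have k : ∀ d', A.ae d' = A.ae d → A.u d' ≠ v → A.u (su d') = v := by
      intro d' e n
      obtain ⟨e1, e2⟩ := Prod.ext_iff.1 e
      simp only [ae] at e1 e2
      rw [← e1, ← e2] at hv
      unfold tp hp at hv
      split_ifs at hv <;> rcases hv with hv | hv <;> simp_all
    refine card_le_card_of_injOn (fun d' => if A.u d' = v then Sum.inl d' else
      if d' ∈ O then Sum.inr d' else Sum.inl (nx d')) ?_ ?_
    · intro d' hd'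
      simp only [coe_filter, Set.mem_setOf_eq] at hd'
      dsimp only
      split_ifs with c1 c2
      · simp [hd'.1, c1]
      · simp [c2, k d' hd'.2 c1]
      · simp [(h1 d' hd'.1 c2).1, (h1 d' hd'.1 c2).2.1, k d' hd'.2 c1]
    · intro a ha b hb e
      simp only [coe_filter, Set.mem_setOf_eq] at ha hb
      dsimp only at e
      split_ifs at e with c1 c2 c3 c4 c5 c6 c7 c8
      · exact Sum.inl.inj e
      · have := (h1 b hb.1 c3).2.2
        rw [← Sum.inl.inj e, ha.2, hb.2] at this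
        exact absurd rfl this
      · exact Sum.inr.inj e
      · have := (h1 a ha.1 c4).2.2
        rw [Sum.inl.inj e, ha.2, hb.2] at this
        exact absurd rfl this
      · exact h2 a ha.1 c4 b hb.1 c8 (Sum.inl.inj e)
  have := sum_levels (A.PP.image A.u) f (Fintype.card ι)
  refine le_trans (sum_le_sum fun t _ => ?_) (this.le.trans ?_)
  · rw [← card_union_of_disjoint]
    · refine card_le_card (union_subset (fun v hv => ?_) fun v hv => ?_)
      · obtain ⟨d, hd, rfl⟩ := mem_image.1 hv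
        obtain ⟨a1, a2⟩ := mem_filter.1 hd
        exact mem_filter.2 ⟨mem_image_of_mem _ (tp_mem a1), a2.trans (key d a1 _ (Or.inl rfl))⟩
      · obtain ⟨d, hd, rfl⟩ := mem_image.1 hv
        obtain ⟨a1, a2⟩ := mem_filter.1 hd
        exact mem_filter.2 ⟨mem_image_of_mem _ (hp_mem a1), a2.trans (key d a1 _ (Or.inr rfl))⟩
    · rw [disjoint_left]
      intro v hv hv'
      obtain ⟨d, hd, rfl⟩ := mem_image.1 hv
      obtain ⟨d', hd', e⟩ := mem_image.1 hv'
      have := H.sdu _ (hp_mem (mem_filter.1 hd').1) _ (tp_mem (mem_filter.1 hd).1) e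
      simp [side_tp, side_hp] at this
  · refine (sum_le_sum fun v _ => min_le_left _ _).trans ?_
    simp only [f]
    rw [sum_add_distrib, ← card_eq_sum_card_fiberwise, ← card_eq_sum_card_fiberwise]
    · intro d hd; exact mem_image_of_mem _ (su_mem (hO hd))
    · intro d hd; exact mem_image_of_mem _ (Dt_PP hd)

theorem Ok.Ex_card (H : A.Ok) (i₀ i₁ : ι → ι → ℕ)
    (ip : ∀ p p' : ι × ℕ, 0 < p.2 → p.2 < A.len p.1 → 0 < p'.2 → p'.2 < A.len p'.1 →
      A.u p' = A.u p → p'.2 ≠ i₀ p'.1 p.1 → p'.2 ≠ i₁ p'.1 p.1 →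
      (A.u (pr p') = A.u (pr p) ∧ A.u (su p') = A.u (su p)) ∨
        (A.u (pr p') = A.u (su p) ∧ A.u (su p') = A.u (pr p))) :
    A.Ex.card ≤ 4 * Fintype.card ι ^ 3 := by
  let S : Finset (ι × ℕ) := univ.image fun a : (ι × ι) × Fin 4 =>
    (a.1.1, ![0, A.len a.1.1, i₀ a.1.1 a.1.2, i₁ a.1.1 a.1.2] a.2)
  have hS : S.card ≤ 4 * Fintype.card ι ^ 2 := card_image_le.trans (by simp; ring_nf; rfl)
  have : A.Ex ⊆ S.biUnion fun q => A.PP.filter fun p => A.u p = A.u q := by
    intro p hp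
    obtain ⟨a1, a2⟩ := mem_filter.1 hp
    simp only [mem_biUnion, mem_filter, a1, true_and]
    by_contra hc
    push Not at hc
    have k : ∀ q ∈ A.PP, A.u q = A.u p → (0 < q.2 ∧ q.2 < A.len q.1) ∧
        q.2 ≠ i₀ q.1 p.1 ∧ q.2 ≠ i₁ q.1 p.1 := by
      intro q hq e
      have b : ∀ j : Fin 4, q.2 ≠ ![0, A.len q.1, i₀ q.1 p.1, i₁ q.1 p.1] j := fun j hj =>
        hc q (mem_image.2 ⟨((q.1, p.1), j), mem_univ _, Prod.ext rfl hj.symm⟩) e.symm
      have b0 : q.2 ≠ 0 := b 0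
      have b1 : q.2 ≠ A.len q.1 := b 1
      rw [mem_PP] at hq
      exact ⟨by omega, b 2, b 3⟩
    refine a2 fun q hq e => ⟨(k q hq e).1, ?_⟩
    exact ip p q (k p a1 rfl).1.1 (k p a1 rfl).1.2 (k q hq e).1.1 (k q hq e).1.2 e
      (k q hq e).2.1 (k q hq e).2.2
  refine (card_le_card this).trans ((card_biUnion_le_card_mul _ _ _ fun q _ => H.c_le _).trans ?_)
  calc _ ≤ 4 * Fintype.card ι ^ 2 * Fintype.card ι := Nat.mul_le_mul_right _ hS
    _ = _ := by ring

end Abs

end Vale.Agent.P201
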