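import Mathlib

/-! Random matchings of large girth through switchings. -/

namespace Vale.Agent.P201

open Equiv Function

variable {Q F V : Type}

/-- presence of an edge -/
def In (ω : Q → Perm F) (e : Q × F × F) : Prop := ω e.1 e.2.1 = e.2.2

instance [DecidableEq F] (ω : Q → Perm F) (e : Q × F × F) : Decidable (In ω e) :=
  inferInstanceAs (Decidable (ω e.1 e.2.1 = e.2.2))

/-- an edge links two vertices -/
def Lk (tl hd : Q → F → V) (v : V) (e : Q × F × F) (v' : V) : Prop :=
  (v = tl e.1 e.2.1 ∧ v' = hd e.1 e.2.2) ∨ (v = hd e.1 e.2.2 ∧ v' = tl e.1 e.2.1)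

/-- non-backtracking walks -/
structure NB (tl hd : Q → F → V) (ω : Q → Perm F) (vx : ℕ → V) (ed : ℕ → Q × F × F) (n : ℕ) :
    Prop where
  lk : ∀ i < n, Lk tl hd (vx i) (ed i) (vx (i + 1))
  mem : ∀ i < n, In ω (ed i)
  nb : ∀ i, i + 1 < n → ed (i + 1) ≠ ed i

/-- girth condition -/
def Gi (tl hd : Q → F → V) (g : ℕ) (ω : Q → Perm F) : Prop :=
  ∀ vx ed n, NB tl hd ω vx ed n → 0 < n → n < g → vx n ≠ vx 0

variable {tl hd : Q → F → V} {ω : Q → Perm F} {g : ℕ}

theorem Lk.symm {v v' : V} {e : Q × F × F} (h : Lk tl hd v e v') : Lk tl hd v' e v := by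
  rcases h with h | h
  · exact Or.inr ⟨h.2, h.1⟩
  · exact Or.inl ⟨h.2, h.1⟩

theorem Lk.det (hb : ∀ q x q' y, tl q x ≠ hd q' y) {v v' v'' : V} {e : Q × F × F}
    (h : Lk tl hd v e v') (h' : Lk tl hd v e v'') : v' = v'' := by
  rcases h with h | h <;> rcases h' with h' | h'
  · rw [h.2, h'.2]
  · exact absurd (h.1.symm.trans h'.1) (hb _ _ _ _)
  · exact absurd (h'.1.symm.trans h.1) (hb _ _ _ _)
  · rw [h.2, h'.2]

theorem NB.shift {vx : ℕ → V} {ed : ℕ → Q × F × F} {n : ℕ} (h : NB tl hd ω vx ed n) (a k : ℕ)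
    (hk : a + k ≤ n) : NB tl hd ω (fun i => vx (a + i)) (fun i => ed (a + i)) k :=
  ⟨fun i hi => h.lk _ (by omega), fun i hi => h.mem _ (by omega),
    fun i hi => h.nb (a + i) (by omega)⟩

theorem NB.rev {vx : ℕ → V} {ed : ℕ → Q × F × F} {n : ℕ} (h : NB tl hd ω vx ed n) (a k : ℕ)
    (ha : a ≤ n) (hk : k ≤ a) :
    NB tl hd ω (fun i => vx (a - i)) (fun i => ed (a - 1 - i)) k := by
  refine ⟨fun i hi => ?_, fun i hi => h.mem _ (by omega), fun i hi => ?_⟩
  · have := (h.lk (a - 1 - i) (by omega)).symm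
    rwa [show a - 1 - i + 1 = a - i by omega, show a - 1 - i = a - (i + 1) by omega,
      ← show a - 1 - i = a - (i + 1) by omega, show vx (a - 1 - i) = vx (a - (i + 1)) by
        congr 1; omega] at this
  · have := h.nb (a - 1 - (i + 1)) (by omega)
    rw [show a - 1 - (i + 1) + 1 = a - 1 - i by omega] at this
    exact this.symm

theorem NB.append {vx vx' : ℕ → V} {ed ed' : ℕ → Q × F × F} {n n' : ℕ} (h : NB tl hd ω vx ed n)
    (h' : NB tl hd ω vx' ed' n') (h0 : vx n = vx' 0) (h1 : ed' 0 ≠ ed (n - 1)) :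
    NB tl hd ω (fun i => if i ≤ n then vx i else vx' (i - n))
      (fun i => if i < n then ed i else ed' (i - n)) (n + n') := by
  refine ⟨fun i hi => ?_, fun i hi => ?_, fun i hi => ?_⟩
  · by_cases c : i < n
    · simp only [if_pos c, if_pos c.le, if_pos (Nat.succ_le_of_lt c)]
      exact h.lk i c
    · have e : (if i ≤ n then vx i else vx' (i - n)) = vx' (i - n) := by
        split_ifs with c'
        · obtain rfl : i = n := by omega
          rw [h0, Nat.sub_self]
        · rfl
      simp only [if_neg c, e, if_neg (show ¬ i + 1 ≤ n by omega)]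
      rw [show i + 1 - n = i - n + 1 by omega]
      exact h'.lk _ (by omega)
  · split_ifs with c
    · exact h.mem i c
    · exact h'.mem _ (by omega)
  · by_cases c : i + 1 < n
    · simp only [if_pos c, if_pos (show i < n by omega)]
      exact h.nb i c
    by_cases c' : i < n
    · obtain rfl : n = i + 1 := by omega
      simpa using h1
    · simp only [if_neg c, if_neg c']
      rw [show i + 1 - n = i - n + 1 by omega]
      exact h'.nb _ (by omega)

theorem Gi.inj (H : Gi tl hd g ω) {vx : ℕ → V} {ed : ℕ → Q × F × F} {n : ℕ}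
    (h : NB tl hd ω vx ed n) (hn : n < g) {i j : ℕ} (hi : i ≤ n) (hj : j ≤ n)
    (e : vx i = vx j) : i = j := by
  wlog c : i < j generalizing i j
  · rcases (not_lt.1 c).eq_or_lt with c | c
    · exact c.symm
    · exact (this hj hi e.symm c).symm
  refine absurd ?_ (H _ _ _ (h.shift i (j - i) (by omega)) (by omega) (by omega))
  rw [show i + (j - i) = j by omega, ← e]; rfl

theorem Gi.uniq (hb : ∀ q x q' y, tl q x ≠ hd q' y) (H : Gi tl hd g ω) (n : ℕ) :
    ∀ {vx vx' : ℕ → V} {ed ed' : ℕ → Q × F × F} {n' : ℕ}, NB tl hd ω vx ed n →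
      NB tl hd ω vx' ed' n' → n + n' < g → vx 0 = vx' 0 → vx n = vx' n' →
      n = n' ∧ (∀ i < n, ed i = ed' i) ∧ ∀ i ≤ n, vx i = vx' i := by
  induction n with
  | zero =>
    intro vx vx' ed ed' n' h h' hn e0 e1
    refine ⟨?_, fun i hi => absurd hi (by omega), fun i hi => ?_⟩
    · by_contra c
      exact H _ _ _ h' (by omega) (by omega) (e1.symm.trans e0)
    · obtain rfl : i = 0 := by omega
      exact e0
  | succ n ih =>
    intro vx vx' ed ed' n' h h' hn e0 e1
    rcases n' with _ | n'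
    · exact absurd (e1.trans e0.symm) (H _ _ _ h (by omega) (by omega))
    by_cases c : ed 0 = ed' 0
    · have e2 : vx 1 = vx' 1 := by
        have a := h.lk 0 (by omega)
        have b := h'.lk 0 (by omega)
        rw [← c, ← e0] at b
        exact a.det hb b
      obtain ⟨a1, a2, a3⟩ := ih (h.shift 1 n (by omega)) (h'.shift 1 n' (by omega)) (by omega) e2
        (by simpa [add_comm] using e1)
      refine ⟨by omega, fun i hi => ?_, fun i hi => ?_⟩
      · rcases i with _ | i
        · exact c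
        · simpa [add_comm] using a2 i (by omega)
      · rcases i with _ | i
        · exact e0
        · simpa [add_comm] using a3 i (by omega)
    · have := (h.rev (n + 1) (n + 1) le_rfl le_rfl).append h' (by simpa using e0)
        (by simpa using Ne.symm c)
      refine absurd ?_ (H _ _ _ this (by omega) hn)
      simp [e1]

variable [Fintype Q] [DecidableEq Q] [Fintype F] [DecidableEq F] [DecidableEq V]

/-- neighbours -/
def nbr (tl hd : Q → F → V) (ω : Q → Perm F) (v : V) : Finset V :=
  ((Finset.univ.filter fun a : Q × F => tl a.1 a.2 = v).image fun a => hd a.1 (ω a.1 a.2)) ∪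
    ((Finset.univ.filter fun a : Q × F => hd a.1 a.2 = v).image
      fun a => tl a.1 ((ω a.1).symm a.2))

/-- balls -/
def ball (tl hd : Q → F → V) (ω : Q → Perm F) (a : V) : ℕ → Finset V
  | 0 => {a}
  | k + 1 => ball tl hd ω a k ∪ (ball tl hd ω a k).biUnion (nbr tl hd ω)

theorem mem_nbr {v v' : V} {e : Q × F × F} (h : Lk tl hd v e v') (h' : In ω e) :
    v' ∈ nbr tl hd ω v := by
  simp only [nbr, Finset.mem_union, Finset.mem_image, Finset.mem_filter, Finset.mem_univ,
    true_and]
  rcases h with h | h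
  · exact Or.inl ⟨(e.1, e.2.1), h.1.symm, by rw [h.2, ← h']⟩
  · exact Or.inr ⟨(e.1, e.2.2), h.1.symm, by rw [h.2, ← h']; simp⟩

theorem ball_card (hdeg : ∀ v, (Finset.univ.filter fun a : Q × F => tl a.1 a.2 = v).card +
      (Finset.univ.filter fun a : Q × F => hd a.1 a.2 = v).card ≤ 5) (a : V) (k : ℕ) :
    (ball tl hd ω a k).card ≤ 6 ^ k := by
  induction k with
  | zero => simp [ball]
  | succ k ih =>
    refine (Finset.card_union_le _ _).trans ?_
    have := Finset.card_biUnion_le_card_mul (ball tl hd ω a k) (nbr tl hd ω) 5 (fun v _ =>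
      (Finset.card_union_le _ _).trans ((add_le_add Finset.card_image_le
        Finset.card_image_le).trans (hdeg v)))
    rw [pow_succ]; omega

theorem ball_mono {a : V} {k l : ℕ} (h : k ≤ l) : ball tl hd ω a k ⊆ ball tl hd ω a l := by
  induction h with
  | refl => exact Finset.Subset.refl _
  | step _ ih => exact ih.trans Finset.subset_union_left

theorem self_mem_ball (a : V) (k : ℕ) : a ∈ ball tl hd ω a k :=
  ball_mono (Nat.zero_le k) (Finset.mem_singleton_self a)

theorem ball_step {a v v' : V} {k : ℕ} {e : Q × F × F} (h0 : v ∈ ball tl hd ω a k)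
    (h : Lk tl hd v e v') (h' : In ω e) : v' ∈ ball tl hd ω a (k + 1) :=
  Finset.mem_union_right _ (Finset.mem_biUnion.2 ⟨v, h0, mem_nbr h h'⟩)

theorem ball_fwd {vx : ℕ → V} {ed : ℕ → Q × F × F} {a : V} {s j : ℕ} (t : ℕ) (hst : s ≤ t)
    (h : ∀ i, s ≤ i → i < t → Lk tl hd (vx i) (ed i) (vx (i + 1)) ∧ In ω (ed i))
    (h0 : vx s ∈ ball tl hd ω a j) : vx t ∈ ball tl hd ω a (j + (t - s)) := by
  induction t, hst using Nat.le_induction with
  | base => simpa using h0
  | succ t hst ih =>
    rw [show j + (t + 1 - s) = j + (t - s) + 1 by omega]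
    exact ball_step (ih fun i h1 h2 => h i h1 (by omega)) (h t hst (by omega)).1
      (h t hst (by omega)).2

theorem ball_bwd {vx : ℕ → V} {ed : ℕ → Q × F × F} {a : V} {s : ℕ} (t : ℕ) (hst : s ≤ t) :
    ∀ j, (∀ i, s ≤ i → i < t → Lk tl hd (vx i) (ed i) (vx (i + 1)) ∧ In ω (ed i)) →
    vx t ∈ ball tl hd ω a j → vx s ∈ ball tl hd ω a (j + (t - s)) := by
  induction t, hst using Nat.le_induction with
  | base => intro j _ h0; simpa using h0
  | succ t hst ih =>
    intro j h h0
    rw [show j + (t + 1 - s) = j + 1 + (t - s) by omega]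
    exact ih _ (fun i h1 h2 => h i h1 (by omega))
      (ball_step h0 (h t hst (by omega)).1.symm (h t hst (by omega)).2)

/-- the switched configuration -/
def sw (ω : Q → Perm F) (q : Q) (x x' : F) : Q → Perm F := update ω q (ω q * swap x x')

omit [Fintype Q] [Fintype F] in
theorem sw_iff {q : Q} {x x' : F} {e : Q × F × F} (h1 : e.1 = q → e.2.1 ≠ x ∧ e.2.1 ≠ x') :
    In (sw ω q x x') e ↔ In ω e := by
  unfold In sw
  by_cases c : e.1 = q
  · rw [c, update_self, Perm.mul_apply, swap_apply_of_ne_of_ne (h1 c).1 (h1 c).2]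
  · rw [update_of_ne c]

theorem switch (hb : ∀ q x q' y, tl q x ≠ hd q' y) (H : Gi tl hd g ω) {q : Q} {x x' : F}
    (far : ∀ u, u = tl q x ∨ u = hd q (ω q x) → ∀ w, w = tl q x' ∨ w = hd q (ω q x') →
      w ∉ ball tl hd ω u g)
    {vx : ℕ → V} {ed : ℕ → Q × F × F} {n : ℕ} (h : NB tl hd (sw ω q x x') vx ed n) (hn : n ≤ g)
    (hc : vx n = vx 0) : ∀ i < n, In ω (ed i) ∧ ed i ≠ (q, x, ω q x) := by
  classical
  have xx : x ≠ x' := by
    rintro rfl
    exact far _ (Or.inl rfl) _ (Or.inl rfl) (self_mem_ball _ _)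
  have old : ∀ e, In (sw ω q x x') e → e ≠ (q, x, ω q x) ∧ e ≠ (q, x', ω q x') := by
    intro e he
    constructor <;> rintro rfl <;> simp [In, sw, xx, xx.symm] at he
  have new : ∀ e, In (sw ω q x x') e → ¬ In ω e → e = (q, x, ω q x') ∨ e = (q, x', ω q x) := by
    rintro ⟨q', a, b⟩ he he'
    by_contra hne
    push Not at hne
    refine he' ((sw_iff ?_).1 he)
    rintro rfl
    constructor <;> rintro rfl
    · simp [In, sw] at he; exact hne.1 (by rw [he])
    · simp [In, sw] at he; exact hne.2 (by rw [he])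
  suffices ∀ i < n, In ω (ed i) from fun i hi => ⟨this i hi, (old _ (h.mem i hi)).1⟩
  by_contra hcon
  push Not at hcon
  obtain ⟨i, ⟨hi, hi'⟩, imin⟩ : ∃ i, (i < n ∧ ¬ In ω (ed i)) ∧ ∀ k < i, In ω (ed k) :=
    ⟨Nat.find hcon, Nat.find_spec hcon, fun k hk => by
      by_contra hc
      exact Nat.find_min hcon hk ⟨hk.trans (Nat.find_spec hcon).1, hc⟩⟩
  let N : V → Prop := fun u => u = tl q x ∨ u = hd q (ω q x)
  let R : V → Prop := fun u => u = tl q x' ∨ u = hd q (ω q x')
  have nf : ∀ k < n, ¬ In ω (ed k) → (N (vx k) ∧ R (vx (k + 1))) ∨ (R (vx k) ∧ N (vx (k + 1))) := by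
    intro k hk hk'
    have := h.lk k hk
    rcases new _ (h.mem k hk) hk' with e | e <;> rw [e] at this <;> rcases this with t | t <;>
      simp [N, R, t.1, t.2]
  by_cases c : ∃ j, i < j ∧ j < n ∧ ¬ In ω (ed j)
  · obtain ⟨j, ⟨hj0, hj, hj'⟩, jmin⟩ : ∃ j, (i < j ∧ j < n ∧ ¬ In ω (ed j)) ∧
        ∀ k, i < k → k < j → In ω (ed k) :=
      ⟨Nat.find c, Nat.find_spec c, fun k h1 hk => by
        by_contra hc
        exact Nat.find_min c hk ⟨h1, hk.trans (Nat.find_spec c).2.1, hc⟩⟩
    have seg : ∀ k, i + 1 ≤ k → k < j → Lk tl hd (vx k) (ed k) (vx (k + 1)) ∧ In ω (ed k) :=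
      fun k h1 h2 => ⟨h.lk k (by omega), jmin k h1 h2⟩
    have sNB : NB tl hd ω (fun k => vx (i + 1 + k)) (fun k => ed (i + 1 + k)) (j - (i + 1)) :=
      ⟨fun k hk => h.lk _ (by omega), fun k hk => jmin _ (by omega) (by omega),
        fun k hk => h.nb (i + 1 + k) (by omega)⟩
    have pair : ∀ z, (z = x ∨ z = x') → (vx (i + 1) = tl q z ∨ vx (i + 1) = hd q (ω q z)) →
        (vx j = tl q z ∨ vx j = hd q (ω q z)) → False := by
      intro z hz h1 h2
      by_cases e : vx (i + 1) = vx j
      · have e' : j = i + 1 := by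
          by_contra hne
          refine H _ _ _ sNB (by omega) (by omega) ?_
          rw [show i + 1 + (j - (i + 1)) = j by omega, ← e]
        subst e'
        have l1 := h.lk i hi
        have l2 := h.lk _ hj
        have f1 := far _ (Or.inl rfl) _ (Or.inl rfl)
        have f2 := far _ (Or.inr rfl) _ (Or.inr rfl)
        have f3 : tl q x' ≠ tl q x := fun hc => f1 (hc ▸ self_mem_ball _ _)
        have f4 : hd q (ω q x') ≠ hd q (ω q x) := fun hc => f2 (hc ▸ self_mem_ball _ _)
        have nb := h.nb i hj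
        rcases new _ (h.mem i hi) hi' with e1 | e1 <;>
          rcases new _ (h.mem _ hj) hj' with e2 | e2
        · exact nb (e2.trans e1.symm)
        · rw [e1] at l1; rw [e2] at l2
          rcases l1 with l1 | l1 <;> rcases l2 with l2 | l2
          · exact hb _ _ _ _ (l2.1.symm.trans l1.2)
          · exact f4 (l1.2.symm.trans l2.1)
          · exact f3 (l2.1.symm.trans l1.2)
          · exact hb _ _ _ _ (l1.2.symm.trans l2.1)
        · rw [e1] at l1; rw [e2] at l2
          rcases l1 with l1 | l1 <;> rcases l2 with l2 | l2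
          · exact hb _ _ _ _ (l2.1.symm.trans l1.2)
          · exact f4 (l2.1.symm.trans l1.2)
          · exact f3 (l1.2.symm.trans l2.1)
          · exact hb _ _ _ _ (l1.2.symm.trans l2.1)
        · exact nb (e2.trans e1.symm)
      · have l : Lk tl hd (vx (i + 1)) (q, z, ω q z) (vx j) := by
          rcases h1 with h1 | h1 <;> rcases h2 with h2 | h2
          · exact absurd (h1.trans h2.symm) e
          · exact Or.inl ⟨h1, h2⟩
          · exact Or.inr ⟨h1, h2⟩
          · exact absurd (h1.trans h2.symm) e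
        have one : NB tl hd ω (fun k => if k = 0 then vx (i + 1) else vx j)
            (fun _ => (q, z, ω q z)) 1 :=
          ⟨fun k hk => by obtain rfl : k = 0 := by omega
                          simpa using l, fun _ _ => rfl, fun k hk => by omega⟩
        obtain ⟨a1, a2, -⟩ := H.uniq hb 1 one sNB (by omega) (by simp)
          (by simp [show i + 1 + (j - (i + 1)) = j by omega])
        have := old _ (h.mem (i + 1) (by omega))
        have a3 := a2 0 (by omega)
        simp only [add_zero] at a3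
        rcases hz with rfl | rfl
        · exact this.1 a3.symm
        · exact this.2 a3.symm
    rcases nf i hi hi' with a | a <;> rcases nf j hj hj' with b | b
    · exact far _ b.1 _ a.2 (ball_mono (by omega)
        (ball_bwd j hj0 0 seg (self_mem_ball _ _)))
    · exact pair x' (Or.inr rfl) a.2 b.1
    · exact pair x (Or.inl rfl) a.2 b.1
    · exact far _ a.2 _ b.1 (ball_mono (by omega)
        (ball_fwd j hj0 seg (self_mem_ball _ 0)))
  · push Not at c
    have s1 : ∀ k, i + 1 ≤ k → k < n → Lk tl hd (vx k) (ed k) (vx (k + 1)) ∧ In ω (ed k) :=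
      fun k h1 h2 => ⟨h.lk k h2, c k h1 h2⟩
    have s2 : ∀ k, 0 ≤ k → k < i → Lk tl hd (vx k) (ed k) (vx (k + 1)) ∧ In ω (ed k) :=
      fun k _ h2 => ⟨h.lk k (by omega), imin k h2⟩
    rcases nf i hi hi' with a | a
    · have b := ball_bwd i (Nat.zero_le i) 0 s2 (self_mem_ball _ _)
      rw [← hc] at b
      exact far _ a.1 _ a.2 (ball_mono (by omega) (ball_bwd n hi _ s1 b))
    · have b := ball_fwd n hi s1 (self_mem_ball _ 0)
      rw [hc] at b
      exact far _ a.2 _ a.1 (ball_mono (by omega) (ball_fwd i (Nat.zero_le i) s2 b))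

theorem far_card (hdeg : ∀ v, (Finset.univ.filter fun a : Q × F => tl a.1 a.2 = v).card +
      (Finset.univ.filter fun a : Q × F => hd a.1 a.2 = v).card ≤ 5)
    (ht : ∀ q, Injective (tl q)) (hh : ∀ q, Injective (hd q)) (ω : Q → Perm F) (q : Q) (x : F)
    (E₀ : Finset (Q × F × F)) : ∃ X : Finset F, Fintype.card F ≤ X.card + (E₀.card + 4 * 6 ^ g) ∧
      ∀ x' ∈ X, (q, x', ω q x') ∉ E₀ ∧ ∀ u, u = tl q x ∨ u = hd q (ω q x) →
        ∀ w, w = tl q x' ∨ w = hd q (ω q x') → w ∉ ball tl hd ω u g := by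
  let B := ball tl hd ω (tl q x) g ∪ ball tl hd ω (hd q (ω q x)) g
  have hB : B.card ≤ 2 * 6 ^ g := by
    refine (Finset.card_union_le _ _).trans ?_
    have := ball_card (ω := ω) hdeg (tl q x) g
    have := ball_card (ω := ω) hdeg (hd q (ω q x)) g
    omega
  let X₁ := Finset.univ.filter fun x' => (q, x', ω q x') ∈ E₀
  let X₂ := Finset.univ.filter fun x' => tl q x' ∈ B
  let X₃ := Finset.univ.filter fun x' => hd q (ω q x') ∈ B
  have c1 : X₁.card ≤ E₀.card :=
    Finset.card_le_card_of_injOn (fun x' => (q, x', ω q x')) (fun x' hx => by simpa [X₁] using hx)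
      (fun a _ b _ h => (Prod.ext_iff.1 (Prod.ext_iff.1 h).2).1)
  have c2 : X₂.card ≤ B.card :=
    Finset.card_le_card_of_injOn (tl q) (fun x' hx => by simpa [X₂] using hx) (ht q).injOn
  have c3 : X₃.card ≤ B.card :=
    Finset.card_le_card_of_injOn (fun x' => hd q (ω q x')) (fun x' hx => by simpa [X₃] using hx)
      ((hh q).comp (ω q).injective).injOn
  refine ⟨(X₁ ∪ X₂ ∪ X₃)ᶜ, ?_, fun x' hx => ?_⟩
  · have := Finset.card_add_card_compl (X₁ ∪ X₂ ∪ X₃)
    have := Finset.card_union_le (X₁ ∪ X₂) X₃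
    have := Finset.card_union_le X₁ X₂
    omega
  · simp only [X₁, X₂, X₃, B, Finset.mem_compl, Finset.mem_union, Finset.mem_filter,
      Finset.mem_univ, true_and, not_or] at hx
    refine ⟨hx.1.1, ?_⟩
    rintro u (rfl | rfl) w (rfl | rfl)
    exacts [hx.1.2.1, hx.2.1, hx.1.2.2, hx.2.2]

theorem Gi.sw (hb : ∀ q x q' y, tl q x ≠ hd q' y) (H : Gi tl hd g ω) {q : Q} {x x' : F}
    (far : ∀ u, u = tl q x ∨ u = hd q (ω q x) → ∀ w, w = tl q x' ∨ w = hd q (ω q x') →
      w ∉ ball tl hd ω u g) : Gi tl hd g (sw ω q x x') := fun vx ed n h h0 hn hc =>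
  H vx ed n ⟨h.lk, fun i hi => (switch hb H far h hn.le hc i hi).1, h.nb⟩ h0 hn hc

theorem exists_girth (hb : ∀ q x q' y, tl q x ≠ hd q' y)
    (hdeg : ∀ v, (Finset.univ.filter fun a : Q × F => tl a.1 a.2 = v).card +
      (Finset.univ.filter fun a : Q × F => hd a.1 a.2 = v).card ≤ 5)
    (ht : ∀ q, Injective (tl q)) (hh : ∀ q, Injective (hd q)) (g : ℕ)
    (hg : 4 * 6 ^ g < Fintype.card F) : ∃ ω, Gi tl hd g ω := by
  classical
  induction g with
  | zero => exact ⟨1, fun _ _ _ _ _ h => absurd h (by omega)⟩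
  | succ g ih =>
    have hg' : 4 * 6 ^ g < Fintype.card F := by rw [pow_succ] at hg; omega
    let bad : (Q → Perm F) → Finset (Q × F × F) := fun ω => Finset.univ.filter fun e =>
      ∃ vx ed n, NB tl hd ω vx ed n ∧ n ≤ g ∧ vx n = vx 0 ∧ ∃ i < n, ed i = e
    obtain ⟨ω, H, hmin⟩ := (Finset.univ.filter (Gi tl hd g)).exists_min_image
      (fun ω => (bad ω).card) (by obtain ⟨ω, h⟩ := ih hg'; exact ⟨ω, by simpa using h⟩)
    simp only [Finset.mem_filter, Finset.mem_univ, true_and] at H hmin
    refine ⟨ω, fun vx ed n h h0 hn hc => ?_⟩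
    obtain ⟨⟨q, x, y⟩, he⟩ : ∃ e, ed 0 = e := ⟨_, rfl⟩
    have hy : ω q x = y := by have := h.mem 0 h0; rwa [he] at this
    subst hy
    obtain ⟨X, h1, h2⟩ := far_card (g := g) hdeg ht hh ω q x ∅
    obtain ⟨x', hx'⟩ : X.Nonempty := by
      rw [← Finset.card_pos]; simp at h1; omega
    have far := (h2 x' hx').2
    refine absurd (hmin _ (H.sw hb far)) (not_le.2 (Finset.card_lt_card ⟨?_, ?_⟩))
    · intro e he
      simp only [bad, Finset.mem_filter, Finset.mem_univ, true_and] at he ⊢
      obtain ⟨vx', ed', n', a1, a2, a3, a4⟩ := he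
      exact ⟨vx', ed', n', ⟨a1.lk, fun i hi => (switch hb H far a1 a2 a3 i hi).1, a1.nb⟩, a2, a3,
        a4⟩
    · intro hsub
      have := @hsub (q, x, ω q x) (by
        simp only [bad, Finset.mem_filter, Finset.mem_univ, true_and]
        exact ⟨vx, ed, n, h, by omega, hc, 0, h0, he⟩)
      simp only [bad, Finset.mem_filter, Finset.mem_univ, true_and] at this
      obtain ⟨vx', ed', n', a1, a2, a3, i, hi, a4⟩ := this
      exact (switch hb H far a1 a2 a3 i hi).2 a4

open Classical in
/-- configurations of large girth containing given edges -/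
noncomputable def Om (tl hd : Q → F → V) (g : ℕ) (E₀ : Finset (Q × F × F)) :
    Finset (Q → Perm F) := Finset.univ.filter fun ω => Gi tl hd g ω ∧ ∀ e ∈ E₀, In ω e

theorem mem_Om {E₀ : Finset (Q × F × F)} :
    ω ∈ Om tl hd g E₀ ↔ Gi tl hd g ω ∧ ∀ e ∈ E₀, In ω e := by simp [Om]

theorem Om_card (hb : ∀ q x q' y, tl q x ≠ hd q' y)
    (hdeg : ∀ v, (Finset.univ.filter fun a : Q × F => tl a.1 a.2 = v).card +
      (Finset.univ.filter fun a : Q × F => hd a.1 a.2 = v).card ≤ 5)
    (ht : ∀ q, Injective (tl q)) (hh : ∀ q, Injective (hd q)) (N' k : ℕ)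
    (hN : N' + (k + 4 * 6 ^ g) ≤ Fintype.card F) (E₀ : Finset (Q × F × F)) (hk : E₀.card ≤ k) :
    (Om tl hd g E₀).card * N' ^ E₀.card ≤ (Om tl hd g ∅).card := by
  induction E₀ using Finset.induction_on with
  | empty => simp
  | insert e E₀ he ih =>
    rw [Finset.card_insert_of_notMem he] at hk ⊢
    refine le_trans ?_ (ih (by omega))
    rw [pow_succ', ← mul_assoc]
    refine Nat.mul_le_mul_right _ ?_
    obtain ⟨q, x, y⟩ := e
    choose X h1 h2 using fun ω => far_card (g := g) hdeg ht hh ω q x E₀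
    calc _ ≤ ∑ ω ∈ Om tl hd g (insert (q, x, y) E₀), (X ω).card := by
          rw [← smul_eq_mul]
          refine Finset.card_nsmul_le_sum _ _ _ fun ω _ => ?_
          have := h1 ω; omega
      _ = ((Om tl hd g (insert (q, x, y) E₀)).sigma X).card := (Finset.card_sigma _ _).symm
      _ ≤ _ := by
          refine Finset.card_le_card_of_injOn (fun p => sw p.1 q x p.2) ?_ ?_
          · rintro ⟨ω, x'⟩ hp
            simp only [Finset.coe_sigma, Set.mem_sigma_iff, Finset.mem_coe, mem_Om] at hp ⊢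
            obtain ⟨⟨a1, a2⟩, a3⟩ := hp
            refine ⟨a1.sw hb (h2 ω x' a3).2, fun e he' => ?_⟩
            have b1 := a2 e (Finset.mem_insert_of_mem he')
            have b2 : ω q x = y := a2 _ (Finset.mem_insert_self _ _)
            refine (sw_iff ?_).2 b1
            obtain ⟨q', a, b⟩ := e
            rintro rfl
            have b3 : ω q' a = b := b1
            constructor <;> rintro rfl
            · exact he (by rwa [← b2, b3])
            · exact (h2 ω a a3).1 (by rwa [b3])
          · rintro ⟨ω, x'⟩ hp ⟨ω', x''⟩ hp' e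
            simp only [Finset.coe_sigma, Set.mem_sigma_iff, Finset.mem_coe, mem_Om] at hp hp'
            have b1 : ω q x = y := hp.1.2 _ (Finset.mem_insert_self _ _)
            have b2 : ω' q x = y := hp'.1.2 _ (Finset.mem_insert_self _ _)
            have e' : sw ω q x x' = sw ω' q x x'' := e
            have c1 : sw ω q x x' q x' = y := by simp [sw, b1]
            have c2 : sw ω' q x x'' q x'' = y := by simp [sw, b2]
            rw [e', ← c2] at c1
            obtain rfl := (sw ω' q x x'' q).injective c1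
            have : ω = ω' := by
              funext q'
              have := congrFun e' q'
              by_cases c : q' = q
              · subst c; simpa [sw] using this
              · simpa [sw, c] using this
            rw [this]

end Vale.Agent.P201
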