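import Vale.Agent.P201.Local1
import Vale.Agent.P201.Switch

/-! The concrete model and the encoding of level sets. -/

namespace Vale.Agent.P201

open Function Finset Equiv

/-- the difference set -/
def DD : Fin 5 → ZMod 21 := ![0, 1, 4, 14, 16]

/-- classes of points -/
def kap (p : ZMod 21) : ZMod 21 := if 18 ≤ p.val then 18 else ((p.val / 2 * 2 : ℕ) : ZMod 21)

/-- voltages -/
def nu (p : ZMod 21) : ZMod 3 := if p = 19 then 1 else if p = 20 then 2 else 0

/-- matching index -/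
abbrev QQ : Type := ZMod 21 × ZMod 3

/-- fibre -/
abbrev FF (M : ℕ) : Type := Fin 5 × Fin M

/-- vertices -/
abbrev VV (M : ℕ) : Type := (ZMod 21 × ZMod 3 × Fin M) ⊕ (ZMod 21 × ZMod 3 × FF M)

/-- edges -/
abbrev EE (M : ℕ) : Type := QQ × FF M × FF M

variable {M : ℕ}

/-- tail -/
def tl (q : QQ) (x : FF M) : VV M := .inl (q.1 - DD x.1, q.2, x.2)

/-- head -/
def hd (q : QQ) (y : FF M) : VV M := .inr (kap q.1, q.2 - nu q.1, y)

theorem DD_inj : Injective DD := by decide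

theorem DD_diff : ∀ a b c d : Fin 5, a ≠ b → DD a - DD b = DD c - DD d → a = c := by decide

theorem kap_card : ∀ k, (univ.filter fun p => kap p = k).card ≤ 5 := by decide +kernel

/-- passes -/
abbrev Pass : Type := {a : ZMod 21 × ZMod 21 // a.1 ≠ a.2 ∧ kap a.1 = kap a.2}

theorem card_Pass : Fintype.card Pass = 24 := by
  rw [Fintype.card_subtype]; decide +kernel

theorem tl_ne_hd (q : QQ) (x : FF M) (q' : QQ) (y : FF M) : tl q x ≠ hd q' y := by
  simp [tl, hd]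

theorem tl_det {q q' : QQ} {x x' : FF M} (h : tl q x = tl q' x') (h' : q.1 = q'.1) :
    q = q' ∧ x = x' := by
  simp only [tl, Sum.inl.injEq, Prod.mk.injEq, h', sub_right_inj] at h
  exact ⟨Prod.ext h' h.2.1, Prod.ext (DD_inj h.1) h.2.2⟩

theorem hd_det {q q' : QQ} {x x' : FF M} (h : hd q x = hd q' x') (h' : q.1 = q'.1) :
    q = q' ∧ x = x' := by
  simp only [hd, Sum.inr.injEq, Prod.mk.injEq, h', sub_left_inj] at h
  exact ⟨Prod.ext h' h.2.1, h.2.2⟩

theorem tl_inj (q : QQ) : Injective (tl q : FF M → VV M) := fun _ _ h => (tl_det h rfl).2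

theorem hd_inj (q : QQ) : Injective (hd q : FF M → VV M) := fun _ _ h => (hd_det h rfl).2

set_option linter.constructorNameAsVariable false in
theorem deg_le (v : VV M) : (univ.filter fun a : QQ × FF M => tl a.1 a.2 = v).card +
      (univ.filter fun a : QQ × FF M => hd a.1 a.2 = v).card ≤ 5 := by
  rcases v with v | v
  · have : (univ.filter fun a : QQ × FF M => hd a.1 a.2 = .inl v) = ∅ := by simp [hd]
    rw [this, card_empty, add_zero]
    refine (card_le_card_of_injOn (t := univ) (fun a => a.2.1) (fun _ _ => mem_univ _) ?_).trans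
      (by simp)
    intro a ha b hb e
    simp only [coe_filter, mem_univ, true_and, Set.mem_setOf_eq] at ha hb
    have h := ha.trans hb.symm
    have : a.1.1 = b.1.1 := by
      dsimp only at e
      simp only [tl, Sum.inl.injEq, Prod.mk.injEq, e, sub_left_inj] at h
      exact h.1
    exact Prod.ext (tl_det h this).1 (tl_det h this).2
  · have : (univ.filter fun a : QQ × FF M => tl a.1 a.2 = .inr v) = ∅ := by simp [tl]
    rw [this, card_empty, zero_add]
    refine (card_le_card_of_injOn (fun a => a.1.1) ?_ ?_).trans (kap_card v.1)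
    · intro a ha
      simp only [coe_filter, mem_univ, true_and, Set.mem_setOf_eq, hd, Sum.inr.injEq] at ha ⊢
      rw [← ha]
    · intro a ha b hb e
      simp only [coe_filter, mem_univ, true_and, Set.mem_setOf_eq] at ha hb
      have h := ha.trans hb.symm
      exact Prod.ext (hd_det h e).1 (hd_det h e).2

theorem edge_tl {ω : QQ → Perm (FF M)} {e e' : EE M} (h : In ω e) (h' : In ω e')
    (h1 : tl e.1 e.2.1 = tl e'.1 e'.2.1) (h2 : e.1.1 = e'.1.1) : e = e' := by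
  obtain ⟨a, b⟩ := tl_det h1 h2
  unfold In at h h'
  exact Prod.ext a (Prod.ext b (by rw [← h, ← h', a, b]))

theorem edge_hd {ω : QQ → Perm (FF M)} {e e' : EE M} (h : In ω e) (h' : In ω e')
    (h1 : hd e.1 e.2.2 = hd e'.1 e'.2.2) (h2 : e.1.1 = e'.1.1) : e = e' := by
  obtain ⟨a, b⟩ := hd_det h1 h2
  unfold In at h h'
  exact Prod.ext a (Prod.ext ((ω e.1).injective (by rw [h, a, h', b])) b)

theorem Gi.simple {g : ℕ} {ω : QQ → Perm (FF M)} (G : Gi tl hd g ω) (hg : 2 < g) {e e' : EE M}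
    (h : In ω e) (h' : In ω e') (h1 : tl e.1 e.2.1 = tl e'.1 e'.2.1)
    (h2 : hd e.1 e.2.2 = hd e'.1 e'.2.2) : e = e' := by
  have one : ∀ e : EE M, In ω e → NB tl hd ω
      (fun k => if k = 0 then tl e.1 e.2.1 else hd e.1 e.2.2) (fun _ => e) 1 := fun e he =>
    ⟨fun k hk => by obtain rfl : k = 0 := by omega
                    exact Or.inl ⟨rfl, rfl⟩, fun _ _ => he, fun k hk => by omega⟩
  exact (G.uniq tl_ne_hd 1 (one e h) (one e' h') hg (by simpa using h1)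
    (by simpa using h2)).2.1 0 (by omega)

/-- type of a vertex -/
def ty : VV M → ZMod 21 := Sum.elim (·.1) (·.1)

/-- sector of a vertex -/
def sec : VV M → ZMod 3 := Sum.elim (·.2.1) (·.2.1)

/-- first coordinate -/
def jc : VV M → Fin M := Sum.elim (·.2.2) (·.2.2.2)

/-- second coordinate -/
def yc : VV M → FF M := Sum.elim (fun v => (0, v.2.2)) (·.2.2)

variable {ι X : Type} [Fintype ι] [DecidableEq ι] [DecidableEq X]

/-- realisations -/
structure Rl (g : ℕ) (ω : QQ → Perm (FF M)) (A : Abs ι X) (vx : ι × ℕ → VV M)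
    (ed : ι × ℕ → EE M) : Prop where
  gi : Gi tl hd g ω
  nb : ∀ σ, NB tl hd ω (fun i => vx (σ, i)) (fun i => ed (σ, i)) (A.len σ)
  ker : ∀ p ∈ A.PP, ∀ p' ∈ A.PP, A.u p = A.u p' ↔ vx p = vx p'
  sd : ∀ p ∈ A.PP, A.side p = (vx p).isLeft
  ml : ∀ σ i, i < A.len σ → (ed (A.β σ, A.len σ - 1 - i)).1.1 = (ed (σ, i)).1.1

open Abs

variable {g : ℕ} {ω ω' : QQ → Perm (FF M)} {A : Abs ι X} {vx vx' : ι × ℕ → VV M}
  {ed ed' : ι × ℕ → EE M}

omit [DecidableEq ι] [DecidableEq X] in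
theorem Rl.mem (R : Rl g ω A vx ed) {d : ι × ℕ} (hd : d ∈ A.Dt) : In ω (ed d) :=
  (R.nb d.1).mem d.2 (mem_Dt.1 hd)

omit [DecidableEq ι] [DecidableEq X] in
theorem Rl.ends (R : Rl g ω A vx ed) {d : ι × ℕ} (h : d ∈ A.Dt) :
    vx (A.tp d) = tl (ed d).1 (ed d).2.1 ∧ vx (A.hp d) = hd (ed d).1 (ed d).2.2 := by
  have h1 : Lk tl hd (vx d) (ed d) (vx (su d)) := (R.nb d.1).lk d.2 (mem_Dt.1 h)
  have h2 := R.sd d (Dt_PP h)
  unfold tp hp
  rcases h1 with h1 | h1
  · rw [h1.1] at h2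
    have : A.side d = true := h2
    simp [this, h1]
  · rw [h1.1] at h2
    have : A.side d = false := h2
    simp [this, h1]

omit [DecidableEq ι] [DecidableEq X] in
theorem Rl.ed_iff (R : Rl g ω A vx ed) (hg : 2 < g) {d d' : ι × ℕ} (h : d ∈ A.Dt)
    (h' : d' ∈ A.Dt) : A.ae d = A.ae d' ↔ ed d = ed d' := by
  simp only [ae, Prod.mk.injEq, R.ker _ (tp_mem h) _ (tp_mem h'), R.ker _ (hp_mem h) _ (hp_mem h'),
    R.ends h, R.ends h']
  exact ⟨fun e => R.gi.simple hg (R.mem h) (R.mem h') e.1 e.2, fun e => by simp [e]⟩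

omit [DecidableEq ι] [DecidableEq X] in
theorem pr_mem {p : ι × ℕ} (h0 : 0 < p.2) (h1 : p.2 < A.len p.1) : pr p ∈ A.Dt :=
  mem_Dt.2 (by simp only [pr]; omega)

omit [DecidableEq ι] [DecidableEq X] in
theorem Rl.at_true (R : Rl g ω A vx ed) {p : ι × ℕ} (h0 : 0 < p.2) (h1 : p.2 < A.len p.1)
    (hs : A.side p = true) : vx p = tl (ed p).1 (ed p).2.1 ∧
      vx p = tl (ed (pr p)).1 (ed (pr p)).2.1 := by
  have a := (R.ends (mem_Dt.2 h1)).1
  have b := (R.ends (pr_mem h0 h1)).1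
  simp only [tp, side_pr h0, hs, su_pr h0] at a b
  exact ⟨a, b⟩

omit [DecidableEq ι] [DecidableEq X] in
theorem Rl.at_false (R : Rl g ω A vx ed) {p : ι × ℕ} (h0 : 0 < p.2) (h1 : p.2 < A.len p.1)
    (hs : A.side p = false) : vx p = hd (ed p).1 (ed p).2.2 ∧
      vx p = hd (ed (pr p)).1 (ed (pr p)).2.2 := by
  have a := (R.ends (mem_Dt.2 h1)).2
  have b := (R.ends (pr_mem h0 h1)).2
  simp only [hp, side_pr h0, hs, su_pr h0] at a b
  exact ⟨a, b⟩

omit [DecidableEq ι] [DecidableEq X] in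
theorem Rl.lab_ne (R : Rl g ω A vx ed) {p : ι × ℕ} (h0 : 0 < p.2) (h1 : p.2 < A.len p.1) :
    (ed (pr p)).1.1 ≠ (ed p).1.1 := by
  intro e
  have n : ed (p.1, p.2 - 1 + 1) ≠ ed (pr p) := (R.nb p.1).nb (p.2 - 1) (by omega)
  rw [Nat.sub_add_cancel h0] at n
  refine n (Eq.symm ?_)
  cases hs : A.side p
  · obtain ⟨a, b⟩ := R.at_false h0 h1 hs
    exact edge_hd (R.mem (pr_mem h0 h1)) (R.mem (mem_Dt.2 h1)) (b.symm.trans a) e
  · obtain ⟨a, b⟩ := R.at_true h0 h1 hs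
    exact edge_tl (R.mem (pr_mem h0 h1)) (R.mem (mem_Dt.2 h1)) (b.symm.trans a) e

omit [DecidableEq ι] [DecidableEq X] in
theorem Rl.pass (R : Rl g ω A vx ed) {p : ι × ℕ} (h0 : 0 < p.2) (h1 : p.2 < A.len p.1)
    (hs : A.side p = false) :
    (ed (pr p)).1.1 ≠ (ed p).1.1 ∧ kap (ed (pr p)).1.1 = kap (ed p).1.1 := by
  obtain ⟨a, b⟩ := R.at_false h0 h1 hs
  exact ⟨R.lab_ne h0 h1, congrArg ty (b.symm.trans a)⟩

theorem encode (H : A.Ok) (hg : 2 < g) (R : Rl g ω A vx ed) (R' : Rl g ω' A vx' ed') (t : ℕ)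
    (ch : X → ι × ℕ) (hch : ∀ p ∈ A.PP, ch (A.u p) ∈ A.PP ∧ A.u (ch (A.u p)) = A.u p)
    (d1 : ∀ v ∈ A.Fr t, (ed (pr (ch v))).1.1 = (ed' (pr (ch v))).1.1 ∧
      (ed (ch v)).1.1 = (ed' (ch v)).1.1)
    (d2 : ∀ p ∈ A.Ex, ty (vx p) = ty (vx' p) ∧ sec (vx p) = sec (vx' p) ∧
      (ed (pr p)).1.1 = (ed' (pr p)).1.1 ∧ (ed p).1.1 = (ed' p).1.1)
    (d3 : ∀ v ∈ A.V1 t, jc (vx (ch v)) = jc (vx' (ch v)))
    (d4 : ∀ v ∈ A.V2 t, yc (vx (ch v)) = yc (vx' (ch v))) : ∀ d ∈ A.Dl t, ed d = ed' d := by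
  let L : ι × ℕ → Prop := fun p => (ed (pr p)).1.1 = (ed' (pr p)).1.1 ∧ (ed p).1.1 = (ed' p).1.1
  have S0 : ∀ p ∈ A.PP, A.Reg p → ∀ p' ∈ A.PP, A.u p' = A.u p → L p → L p' := by
    intro p hp hr p' hp' e hl
    have i1 := hr.int hp
    have i2 := (hr p' hp' e).1
    have m1 := pr_mem i1.1 i1.2
    have m2 := mem_Dt.2 i1.2
    have m3 := pr_mem i2.1 i2.2
    have m4 := mem_Dt.2 i2.2
    rcases H.reg_ae hr hp hp' e with b | b
    · exact ⟨by rw [(R.ed_iff hg m3 m1).1 b.1, (R'.ed_iff hg m3 m1).1 b.1, hl.1],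
        by rw [(R.ed_iff hg m4 m2).1 b.2, (R'.ed_iff hg m4 m2).1 b.2, hl.2]⟩
    · exact ⟨by rw [(R.ed_iff hg m3 m2).1 b.1, (R'.ed_iff hg m3 m2).1 b.1, hl.2],
        by rw [(R.ed_iff hg m4 m1).1 b.2, (R'.ed_iff hg m4 m1).1 b.2, hl.1]⟩
  have Sx : ∀ p ∈ A.PP, ¬ A.Reg p → p ∈ A.Ex := fun p hp h => mem_filter.2 ⟨hp, h⟩
  have S1 : ∀ n, ∀ p ∈ A.PP, A.side p = false → A.Reg p → t ≤ A.c (A.u p) →
      A.rk (A.u p) = n → L p := by
    intro n
    induction n using WellFoundedLT.induction with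
    | ind n ih =>
    intro p hp hs hr ht hn
    by_cases c : p ∈ A.FP
    · obtain ⟨a1, a2⟩ := hch p hp
      exact S0 _ a1 (hr.cls a1 a2) p hp a2.symm
        (d1 _ (mem_image_of_mem _ (mem_filter.2 ⟨c, ht⟩)))
    · simp only [FP, mem_filter, hp, hs, hr, true_and] at c
      push Not at c
      obtain ⟨p', hp', e, h⟩ := c
      have i2 := (hr p' hp' e).1
      have : L (A.mp p') := by
        by_cases c : A.Reg (A.mp p')
        · have h1 := h c
          refine ih _ (hn ▸ h1) _ (H.mp_mem _) ?_ c (ht.trans ?_) rfl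
          · rw [H.msd p' i2.1 i2.2, H.sdu _ hp' _ hp e, hs]
          · have h2 := (Prod.Lex.toLex_le_toLex.1 h1.le)
            have := H.c_le (A.u p)
            have := H.c_le (A.u (A.mp p'))
            dsimp only at h2
            omega
        · exact (d2 _ (Sx _ (H.mp_mem _) c)).2.2
      refine S0 p' hp' (hr.cls hp' e) p hp e.symm ⟨?_, ?_⟩
      · have e1 := R.ml p'.1 (p'.2 - 1) (by omega)
        have e2 := R'.ml p'.1 (p'.2 - 1) (by omega)
        rw [show A.len p'.1 - 1 - (p'.2 - 1) = A.len p'.1 - p'.2 by omega] at e1 e2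
        exact e1.symm.trans (this.2.trans e2)
      · have e1 := R.ml p'.1 p'.2 i2.2
        have e2 := R'.ml p'.1 p'.2 i2.2
        rw [show A.len p'.1 - 1 - p'.2 = A.len p'.1 - p'.2 - 1 by omega] at e1 e2
        exact e1.symm.trans (this.1.trans e2)
  have S2 : ∀ d ∈ A.Dl t, (ed d).1.1 = (ed' d).1.1 := by
    intro d hd
    obtain ⟨a1, a2⟩ := mem_filter.1 hd
    have : L (A.hp d) := by
      by_cases c : A.Reg (A.hp d)
      · exact S1 _ _ (hp_mem a1) (side_hp d) c (a2.trans (H.m_le_hp d)) rfl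
      · exact (d2 _ (Sx _ (hp_mem a1) c)).2.2
    unfold hp at this
    split_ifs at this
    · exact this.1
    · exact this.2
  have S3 : ∀ i σ, (σ, i) ∈ A.Dl t → (ed (σ, i)).1 = (ed' (σ, i)).1 := by
    intro i
    induction i using Nat.strong_induction_on with
    | _ i ih =>
    intro σ hd
    obtain ⟨a1, a2⟩ := mem_filter.1 hd
    have k : sec (vx (σ, i)) = sec (vx' (σ, i)) := by
      by_cases c : A.Reg (σ, i)
      · obtain ⟨i1, i2⟩ := c.int (Dt_PP a1)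
        have := ih (i - 1) (by dsimp only at i1; omega) σ (mem_filter.2 ⟨pr_mem i1 i2,
          a2.trans ((H.m_le_self _).trans (H.reg_m c (Dt_PP a1) (Or.inr rfl)))⟩)
        change (ed (pr (σ, i))).1 = (ed' (pr (σ, i))).1 at this
        cases hs : A.side (σ, i)
        · rw [(R.at_false i1 i2 hs).2, (R'.at_false i1 i2 hs).2, this]; rfl
        · rw [(R.at_true i1 i2 hs).2, (R'.at_true i1 i2 hs).2, this]; rfl
      · exact (d2 _ (Sx _ (Dt_PP a1) c)).2.1
    have l := S2 _ hd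
    refine Prod.ext l ?_
    have b := R.ends a1
    have b' := R'.ends a1
    cases hs : A.side (σ, i)
    · simp only [hp, hs, Bool.false_eq_true, if_false] at b b'
      rw [b.2, b'.2] at k
      simpa [sec, P201.hd, l] using k
    · simp only [tp, hs, if_true] at b b'
      rw [b.1, b'.1] at k
      exact k
  intro d hd
  obtain ⟨a1, a2⟩ := mem_filter.1 hd
  have q := S3 d.2 d.1 hd
  change (ed d).1 = (ed' d).1 at q
  have b := R.ends a1
  have b' := R'.ends a1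
  have S4 : ty (vx (A.tp d)) = ty (vx' (A.tp d)) := by
    by_cases c : A.Reg (A.tp d)
    · obtain ⟨i1, i2⟩ := c.int (tp_mem a1)
      have h := a2.trans (H.m_le_tp d)
      have l1 := S2 _ (mem_filter.2 ⟨pr_mem i1 i2, h.trans (H.reg_m c (tp_mem a1) (Or.inr rfl))⟩)
      have l2 := S2 _ (mem_filter.2 ⟨mem_Dt.2 i2, h.trans (H.reg_m c (tp_mem a1) (Or.inl rfl))⟩)
      have n := R.lab_ne i1 i2
      obtain ⟨e1, e2⟩ := R.at_true i1 i2 (side_tp d)
      obtain ⟨e3, e4⟩ := R'.at_true i1 i2 (side_tp d)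
      have f1 := congrArg ty (e1.symm.trans e2)
      have f2 := congrArg ty (e3.symm.trans e4)
      rw [e1, e3]
      simp only [ty, tl, Sum.elim_inl, ← l1, ← l2] at f1 f2 ⊢
      rw [DD_diff (ed (A.tp d)).2.1.1 (ed (pr (A.tp d))).2.1.1 (ed' (A.tp d)).2.1.1
        (ed' (pr (A.tp d))).2.1.1 (fun hc => n (by rw [hc] at f1; simpa using f1.symm))
        (by linear_combination f2 - f1)]
    · exact (d2 _ (Sx _ (tp_mem a1) c)).1
  have S5 := d3 _ (mem_image_of_mem _ hd)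
  have S6 := d4 _ (mem_image_of_mem _ hd)
  obtain ⟨c1, c2⟩ := hch _ (tp_mem a1)
  obtain ⟨c3, c4⟩ := hch _ (hp_mem a1)
  rw [(R.ker _ c1 _ (tp_mem a1)).1 c2, (R'.ker _ c1 _ (tp_mem a1)).1 c2, b.1, b'.1] at S5
  rw [(R.ker _ c3 _ (hp_mem a1)).1 c4, (R'.ker _ c3 _ (hp_mem a1)).1 c4, b.2, b'.2] at S6
  rw [b.1, b'.1, q] at S4
  refine Prod.ext q (Prod.ext (Prod.ext (DD_inj ?_) S5) S6)
  simpa [ty, tl] using S4

end Vale.Agent.P201
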