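import Vale.Agent.P201.Local2

/-! The union bound and the local lemma. -/

namespace Vale.Agent.P201

open Function Finset Equiv Abs

theorem card_image_le_of {α β γ : Type} [DecidableEq α] [DecidableEq β] [DecidableEq γ]
    (f : α → β) (g : α → γ) (s : Finset α) (h : ∀ a ∈ s, ∀ b ∈ s, g a = g b → f a = f b) :
    (s.image f).card ≤ (s.image g).card := by
  induction s using Finset.induction_on with
  | empty => simp
  | insert a s ha ih =>
    have ih' := ih fun x hx y hy => h x (mem_insert_of_mem hx) y (mem_insert_of_mem hy)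
    rw [image_insert, image_insert]
    by_cases c : g a ∈ s.image g
    · obtain ⟨b, hb, e⟩ := mem_image.1 c
      rw [insert_eq_of_mem c, insert_eq_of_mem (mem_image.2 ⟨b, hb,
        h b (mem_insert_of_mem hb) a (mem_insert_self _ _) e⟩)]
      exact ih'
    · rw [card_insert_of_notMem c]
      exact (card_insert_le _ _).trans (by omega)

variable {M g : ℕ} {ι X : Type} [Fintype ι] [DecidableEq ι] [DecidableEq X]

/-- number of codes -/
def Num (M : ℕ) (A : Abs ι X) (t : ℕ) : ℕ :=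
  24 ^ (A.Fr t).card * 27783 ^ A.Ex.card * M ^ (A.V1 t).card * (5 * M) ^ (A.V2 t).card

open Classical in
theorem count_le [Nonempty ι] {A : Abs ι X} (H : A.Ok) (hg : 2 < g) (N' k : ℕ) (h0 : 0 < N')
    (hN : N' + (k + 4 * 6 ^ g) ≤ 5 * M) (hk : A.Dt.card ≤ k) (t : ℕ) :
    (univ.filter fun ω : QQ → Perm (FF M) => ∃ vx ed, Rl g ω A vx ed).card * N' ^ A.k t ≤
      Num M A t * (Om (tl (M := M)) hd g ∅).card := by
  obtain ⟨ch, hch⟩ : ∃ ch : X → ι × ℕ, ∀ p ∈ A.PP, ch (A.u p) ∈ A.PP ∧ A.u (ch (A.u p)) = A.u p := by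
    have : ∀ v, ∃ q : ι × ℕ, ∀ p ∈ A.PP, A.u p = v → q ∈ A.PP ∧ A.u q = v := by
      intro v
      by_cases c : ∃ p ∈ A.PP, A.u p = v
      · obtain ⟨p, hp⟩ := c
        exact ⟨p, fun _ _ _ => hp⟩
      · exact ⟨Classical.arbitrary _, fun p h1 h2 => absurd ⟨p, h1, h2⟩ c⟩
    choose ch h using this
    exact ⟨ch, fun p hp => h _ p hp rfl⟩
  let S := {ω : QQ → Perm (FF M) // ∃ vx ed, Rl g ω A vx ed}
  have hS : ∀ ω : S, ∃ vx ed, Rl g ω.1 A vx ed := fun ω => ω.2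
  choose vx ed R using hS
  have hF : ∀ v ∈ A.Fr t, (0 < (ch v).2 ∧ (ch v).2 < A.len (ch v).1) ∧ A.side (ch v) = false := by
    intro v hv
    obtain ⟨p, hp, rfl⟩ := mem_image.1 hv
    obtain ⟨a1, a2, a3, -⟩ := mem_filter.1 (mem_filter.1 hp).1
    obtain ⟨b1, b2⟩ := hch p a1
    exact ⟨(a3 _ b1 b2).1, by rw [H.sdu _ b1 _ a1 b2, a2]⟩
  let Dat := ((A.Fr t → Pass) × (A.Ex → ZMod 21 × ZMod 3 × ZMod 21 × ZMod 21)) ×
    (A.V1 t → Fin M) × (A.V2 t → FF M)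
  let enc : S → Dat := fun ω =>
    ((fun v => ⟨((ed ω (pr (ch v))).1.1, (ed ω (ch v)).1.1),
        (R ω).pass (hF _ v.2).1.1 (hF _ v.2).1.2 (hF _ v.2).2⟩,
      fun p => (ty (vx ω p), sec (vx ω p), (ed ω (pr p)).1.1, (ed ω p).1.1)),
      fun v => jc (vx ω (ch v)), fun v => yc (vx ω (ch v)))
  have hD : Fintype.card Dat = Num M A t := by
    simp only [Dat, Fintype.card_prod, Fintype.card_fun, card_Pass, Fintype.card_coe, ZMod.card,
      Fintype.card_fin, Num]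
    ring
  rw [← Fintype.card_subtype, ← card_univ,
    card_eq_sum_card_fiberwise (f := enc) (t := univ) (fun _ _ => mem_univ _), sum_mul, ← hD,
    ← card_univ, ← smul_eq_mul, ← sum_const]
  refine sum_le_sum fun δ _ => ?_
  rcases (univ.filter fun ω => enc ω = δ).eq_empty_or_nonempty with e | ⟨ω₀, h₀⟩
  · simp [e]
  have h₀' := (mem_filter.1 h₀).2
  let E₀ := (A.Dl t).image (ed ω₀)
  have c1 : A.k t ≤ E₀.card := card_image_le_of _ _ _ fun a ha b hb =>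
    ((R ω₀).ed_iff hg (mem_filter.1 ha).1 (mem_filter.1 hb).1).2
  have c2 : E₀.card ≤ k := card_image_le.trans ((card_filter_le _ _).trans hk)
  refine le_trans (Nat.mul_le_mul ?_ (Nat.pow_le_pow_right h0 c1))
    (Om_card tl_ne_hd deg_le tl_inj hd_inj N' k (by simpa using hN) E₀ c2)
  refine card_le_card_of_injOn Subtype.val (fun ω hω => ?_) Subtype.val_injective.injOn
  have h1 : enc ω₀ = enc ω := h₀'.trans (mem_filter.1 hω).2.symm
  simp only [enc, Dat, Prod.mk.injEq, funext_iff, Subtype.forall, Subtype.mk.injEq] at h1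
  have := encode H hg (R ω₀) (R ω) t ch hch h1.1.1 h1.1.2 h1.2.1 h1.2.2
  refine mem_Om.2 ⟨(R ω).gi, fun e he => ?_⟩
  obtain ⟨d, hd, rfl⟩ := mem_image.1 he
  rw [this d hd]
  exact (R ω).mem (mem_filter.1 hd).1

/-- interval data -/
abbrev IQ (h : ℕ) : Type := Fin (h + 1) × Fin (h + 1) × Fin (h + 1) × Bool

/-- the relation described by interval data -/
def Rel {h : ℕ} (q : IQ h) (i j : ℕ) : Prop :=
  q.1.1 ≤ i ∧ i ≤ q.2.1.1 ∧ if q.2.2.2 then j + q.1.1 = q.2.2.1.1 + i else j + i = q.2.2.1.1 + q.1.1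

instance {h : ℕ} (q : IQ h) (i j : ℕ) : Decidable (Rel q i j) := by unfold Rel; infer_instance

theorem interval {Q F V : Type} {tl hd : Q → F → V} {ω : Q → Perm F}
    (hb : ∀ q x q' y, tl q x ≠ hd q' y) (G : Gi tl hd g ω) {h : ℕ} (h1 : 1 ≤ h) (hg : 2 * h < g)
    {vx vx' : ℕ → V} {ed ed' : ℕ → Q × F × F} {n n' : ℕ} (w : NB tl hd ω vx ed n)
    (w' : NB tl hd ω vx' ed' n') (hn : n ≤ h) (hn' : n' ≤ h) :
    ∃ q : IQ h, ∀ i ≤ n, ∀ j ≤ n', vx i = vx' j ↔ Rel q i j := by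
  classical
  let I := (range (n + 1)).filter fun i => ∃ j ≤ n', vx i = vx' j
  have mI : ∀ i, i ∈ I ↔ i ≤ n ∧ ∃ j ≤ n', vx i = vx' j := fun i => by
    simp [I, Nat.lt_succ_iff]
  rcases I.eq_empty_or_nonempty with e | ne
  · refine ⟨(⟨1, by omega⟩, 0, 0, true), fun i hi j hj => ⟨fun h => ?_, fun h => ?_⟩⟩
    · have := (mI i).2 ⟨hi, j, hj, h⟩
      simp [e] at this
    · simp only [Rel, Fin.val_zero] at h; omega
  obtain ⟨a1, j₀, a2, a3⟩ := (mI _).1 (I.min'_mem ne)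
  obtain ⟨b1, j₁, b2, b3⟩ := (mI _).1 (I.max'_mem ne)
  have lo : ∀ i ∈ I, I.min' ne ≤ i := fun i hi => I.min'_le i hi
  have hi : ∀ i ∈ I, i ≤ I.max' ne := fun i hi => I.le_max' i hi
  have lh := I.min'_le_max' ne
  generalize I.min' ne = i₀ at *
  generalize I.max' ne = i₁ at *
  have s := w.shift i₀ (i₁ - i₀) (by omega)
  by_cases c : j₀ ≤ j₁
  · obtain ⟨e1, -, e2⟩ := G.uniq hb _ s (w'.shift j₀ (j₁ - j₀) (by omega)) (by omega) a3
      (by rwa [show i₀ + (i₁ - i₀) = i₁ by omega, show j₀ + (j₁ - j₀) = j₁ by omega])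
    refine ⟨(⟨i₀, by omega⟩, ⟨i₁, by omega⟩, ⟨j₀, by omega⟩, true), fun i hi' j hj => ?_⟩
    simp only [Rel, if_true]
    constructor
    · intro e
      have m := (mI i).2 ⟨hi', j, hj, e⟩
      have l1 := lo i m
      have l2 := hi i m
      have := e2 (i - i₀) (by omega)
      rw [show i₀ + (i - i₀) = i by omega, e] at this
      have := G.inj w' (by omega) hj (by omega) this
      omega
    · rintro ⟨l1, l2, l3⟩
      have := e2 (i - i₀) (by omega)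
      rwa [show i₀ + (i - i₀) = i by omega, show j₀ + (i - i₀) = j by omega] at this
  · obtain ⟨e1, -, e2⟩ := G.uniq hb _ s (w'.rev j₀ (j₀ - j₁) a2 (by omega)) (by omega) a3
      (by rwa [show i₀ + (i₁ - i₀) = i₁ by omega, show j₀ - (j₀ - j₁) = j₁ by omega])
    refine ⟨(⟨i₀, by omega⟩, ⟨i₁, by omega⟩, ⟨j₀, by omega⟩, false), fun i hi' j hj => ?_⟩
    simp only [Rel, Bool.false_eq_true, if_false]
    constructor
    · intro e
      have m := (mI i).2 ⟨hi', j, hj, e⟩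
      have l1 := lo i m
      have l2 := hi i m
      have := e2 (i - i₀) (by omega)
      rw [show i₀ + (i - i₀) = i by omega, e] at this
      have := G.inj w' (by omega) hj (by omega) this
      omega
    · rintro ⟨l1, l2, l3⟩
      have := e2 (i - i₀) (by omega)
      rwa [show i₀ + (i - i₀) = i by omega, show j₀ - (i - i₀) = j by omega] at this

/-- keys -/
abbrev Key (ι : Type) (h : ℕ) : Type :=
  (ι → Fin (h + 1)) × (ι → ι) × (ι → Bool) × (ι → ι → IQ h)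

/-- the abstract system of a key -/
noncomputable def Key.abs {h : ℕ} (κ : Key ι h) : Abs ι (Finset (ι × ℕ)) where
  len σ := (κ.1 σ).1
  β := κ.2.1
  sd := κ.2.2.1
  u p := (univ ×ˢ range (h + 1)).filter fun p' =>
    p'.2 ≤ (κ.1 p'.1).1 ∧ Rel (κ.2.2.2 p.1 p'.1) p.2 p'.2
  e := (exists_injective_nat (Finset (ι × ℕ))).choose

/-- systems of segments in the graph -/
structure Sy (ω : QQ → Perm (FF M)) (len : ι → ℕ) (β : ι → ι) (vx : ι × ℕ → VV M)
    (ed : ι × ℕ → EE M) : Prop where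
  nb : ∀ σ, NB tl hd ω (fun i => vx (σ, i)) (fun i => ed (σ, i)) (len σ)
  blen : ∀ σ, len (β σ) = len σ
  bb : ∀ σ, β (β σ) = σ
  ml : ∀ σ i, i < len σ → (ed (β σ, len σ - 1 - i)).1.1 = (ed (σ, i)).1.1
  msd : ∀ σ i, 0 < i → i < len σ → (vx (β σ, len σ - i)).isLeft = (vx (σ, i)).isLeft
  mne : ∀ σ i, 0 < i → i < len σ → vx (β σ, len σ - i) ≠ vx (σ, i)

theorem Sy.key {ω : QQ → Perm (FF M)} {len : ι → ℕ} {β : ι → ι} {vx : ι × ℕ → VV M}
    {ed : ι × ℕ → EE M} (S : Sy ω len β vx ed) (G : Gi tl hd g ω) {h : ℕ} (h1 : 1 ≤ h)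
    (hg : 2 * h < g) (hl : ∀ σ, len σ ≤ h) : ∃ κ : Key ι h, κ.abs.len = len ∧ κ.abs.Ok ∧
      Rl g ω κ.abs vx ed ∧ κ.abs.Ex.card ≤ 4 * Fintype.card ι ^ 3 := by
  choose q hq using fun σ σ' => interval tl_ne_hd G h1 hg (S.nb σ) (S.nb σ') (hl σ) (hl σ')
  let κ : Key ι h := (fun σ => ⟨len σ, Nat.lt_succ_of_le (hl σ)⟩, β, fun σ => (vx (σ, 0)).isLeft, q)
  have hP : ∀ p, p ∈ κ.abs.PP ↔ p.2 ≤ len p.1 := fun p => mem_PP
  have hu : ∀ p ∈ κ.abs.PP, ∀ p', p' ∈ κ.abs.u p ↔ p'.2 ≤ len p'.1 ∧ vx p = vx p' := by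
    intro p hp p'
    simp only [Key.abs, mem_filter, mem_product, mem_univ, mem_range, true_and, κ]
    have := hl p'.1
    refine ⟨fun h => ⟨h.2.1, (hq _ _ _ ((hP p).1 hp) _ h.2.1).2 h.2.2⟩,
      fun h => ⟨by omega, h.1, (hq _ _ _ ((hP p).1 hp) _ h.1).1 h.2⟩⟩
  have ker : ∀ p ∈ κ.abs.PP, ∀ p' ∈ κ.abs.PP, κ.abs.u p = κ.abs.u p' ↔ vx p = vx p' := by
    intro p hp p' hp'
    refine ⟨fun e => ?_, fun e => ?_⟩
    · exact ((hu p hp p').1 (e ▸ (hu p' hp' p').2 ⟨(hP _).1 hp', rfl⟩)).2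
    · ext x; rw [hu p hp, hu p' hp', e]
  have sd : ∀ p ∈ κ.abs.PP, κ.abs.side p = (vx p).isLeft := by
    rintro ⟨σ, i⟩ hp
    rw [hP] at hp
    induction i with
    | zero => simp [side, Key.abs, κ]
    | succ i ih =>
      have := side_su (A := κ.abs) (σ, i)
      rw [ih (by dsimp only at hp ⊢; omega)] at this
      refine this.trans ?_
      rcases (S.nb σ).lk i hp with l | l <;> simp [l.1, l.2, tl, hd]
  have mm : ∀ p, κ.abs.mp p ∈ κ.abs.PP := fun p => by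
    rw [hP]
    change len p.1 - p.2 ≤ len (β p.1)
    rw [S.blen]; omega
  have H : κ.abs.Ok :=
    { inj := fun p hp p' hp' e e' => Prod.ext e' (G.inj (S.nb p.1) (by have := hl p.1; omega)
        ((hP _).1 hp) (e' ▸ (hP _).1 hp') (by rw [(ker _ hp _ hp').1 e, e']))
      sdu := fun p hp p' hp' e => by rw [sd p hp, sd p' hp', (ker _ hp _ hp').1 e]
      blen := S.blen
      bb := S.bb
      msd := fun p a b => by
        rw [sd _ (mm p), sd p ((hP p).2 b.le)]; exact S.msd p.1 p.2 a b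
      mne := fun p a b e => S.mne p.1 p.2 a b ((ker _ (mm p) _ ((hP p).2 b.le)).1 e)
      einj := (exists_injective_nat (Finset (ι × ℕ))).choose_spec }
  refine ⟨κ, rfl, H, ⟨G, S.nb, ker, sd, S.ml⟩,
    H.Ex_card (fun σ σ' => (q σ σ').1.1) (fun σ σ' => (q σ σ').2.1.1) ?_⟩
  intro p p' a1 a2 b1 b2 e n1 n2
  change p.2 < len p.1 at a2
  change p'.2 < len p'.1 at b2
  have k : ∀ i ≤ len p'.1, ∀ j ≤ len p.1, κ.abs.u (p'.1, i) = κ.abs.u (p.1, j) ↔
      Rel (q p'.1 p.1) i j := fun i hi j hj =>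
    (ker _ ((hP _).2 hi) _ ((hP _).2 hj)).trans (hq _ _ i hi j hj)
  have r := (k _ b2.le _ a2.le).1 e
  simp only [pr, su]
  rw [k _ (by omega) _ (by omega), k _ (by omega) _ (by omega), k _ (by omega) _ (by omega),
    k _ (by omega) _ (by omega)]
  unfold Rel at r ⊢
  split_ifs at r ⊢ <;> omega

theorem local_lemma (J h g M N' : ℕ) (hJ : 0 < J) (h1 : 1 ≤ h) (hg : 2 * h < g) (h0 : 0 < N')
    (hN : N' + (J * h + 4 * 6 ^ g) ≤ 5 * M) : ∃ ω : QQ → Perm (FF M), Gi tl hd g ω ∧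
      ∀ (len : Fin J → ℕ) (β : Fin J → Fin J) (vx : Fin J × ℕ → VV M) (ed : Fin J × ℕ → EE M)
        (O : Finset (Fin J × ℕ)) (nx : Fin J × ℕ → Fin J × ℕ), Sy ω len β vx ed →
        (∀ σ, len σ ≤ h) → (∀ d ∈ O, d.2 < len d.1) →
        (∀ d : Fin J × ℕ, d.2 < len d.1 → d ∉ O →
          (nx d).2 < len (nx d).1 ∧ vx (nx d) = vx (su d) ∧ ed (nx d) ≠ ed d) →
        (∀ d : Fin J × ℕ, d.2 < len d.1 → d ∉ O → ∀ d' : Fin J × ℕ, d'.2 < len d'.1 → d' ∉ O →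
          nx d = nx d' → d = d') →
        25 ^ (∑ σ, len σ) * N' ^ (4 * ∑ σ, len σ) ≤
          ((2 * (Fintype.card (Key (Fin J) h) * J)) ^ J * (27783 ^ J * 5) ^ (4 * J ^ 3)) ^ 4 *
            24 ^ (∑ σ, len σ) * (5 * M) ^ (4 * (∑ σ, len σ + O.card)) := by
  classical
  haveI : Nonempty (Fin J) := ⟨⟨0, hJ⟩⟩
  set K := Fintype.card (Key (Fin J) h) * J with hK
  have hD : ∀ κ : Key (Fin J) h, κ.abs.Dt.card ≤ J * h := fun κ => by
    rw [card_Dt]
    refine (sum_le_card_nsmul _ _ h fun σ _ => Nat.lt_succ_iff.1 (κ.1 σ).2).trans ?_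
    simp
  let Ω := Om (tl (M := M)) hd g ∅
  let B := ((univ : Finset (Key (Fin J) h)) ×ˢ Icc 1 J).filter fun a =>
    a.1.abs.Ok ∧ 2 * K * Num M a.1.abs a.2 < N' ^ a.1.abs.k a.2
  let Rz : Key (Fin J) h → Finset (QQ → Perm (FF M)) := fun κ =>
    univ.filter fun ω => ∃ vx ed, Rl g ω κ.abs vx ed
  have c0 : 0 < Ω.card := by
    obtain ⟨ω, hω⟩ := exists_girth (tl_ne_hd (M := M)) deg_le tl_inj hd_inj g (by simp; omega)
    exact card_pos.2 ⟨ω, mem_Om.2 ⟨hω, by simp⟩⟩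
  have c1 : ∀ a ∈ B, 2 * K * (Rz a.1).card ≤ Ω.card := by
    intro a ha
    obtain ⟨-, a1, a2⟩ := mem_filter.1 ha
    have := count_le (M := M) a1 (show 2 < g by omega) N' (J * h) h0 hN (hD _) a.2
    refine Nat.le_of_mul_le_mul_right ?_ (Nat.pow_pos h0 (n := a.1.abs.k a.2))
    calc _ = 2 * K * ((Rz a.1).card * N' ^ a.1.abs.k a.2) := by ring
      _ ≤ 2 * K * (Num M a.1.abs a.2 * Ω.card) := Nat.mul_le_mul_left _ this
      _ = Ω.card * (2 * K * Num M a.1.abs a.2) := by ring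
      _ ≤ _ := Nat.mul_le_mul_left _ a2.le
  have c2 : (B.biUnion fun a => Rz a.1).card < Ω.card := by
    have e1 : 2 * K * (B.biUnion fun a => Rz a.1).card ≤ K * Ω.card := by
      calc _ ≤ 2 * K * ∑ a ∈ B, (Rz a.1).card := Nat.mul_le_mul_left _ card_biUnion_le
        _ = ∑ a ∈ B, 2 * K * (Rz a.1).card := mul_sum _ _ _
        _ ≤ B.card * Ω.card := sum_le_card_nsmul _ _ _ c1
        _ ≤ _ := Nat.mul_le_mul_right _ ((card_filter_le _ _).trans (by simp [hK]))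
    have e2 : 0 < K := Nat.mul_pos Fintype.card_pos hJ
    have e3 : 2 * (B.biUnion fun a => Rz a.1).card ≤ Ω.card :=
      Nat.le_of_mul_le_mul_left (by rwa [← mul_assoc, mul_comm K 2]) e2
    omega
  obtain ⟨ω, w1, w2⟩ := exists_mem_notMem_of_card_lt_card c2
  have G := (mem_Om.1 w1).1
  refine ⟨ω, G, fun len β vx ed O nx S hl o1 o2 o3 => ?_⟩
  obtain ⟨κ, rfl, H, R, hE⟩ := S.key G h1 hg hl
  have lv : ∀ t ∈ Icc 1 J, N' ^ κ.abs.k t ≤ 2 * K * Num M κ.abs t := by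
    intro t ht
    by_contra hc
    exact w2 (mem_biUnion.2 ⟨(κ, t), mem_filter.2 ⟨mem_product.2 ⟨mem_univ _, ht⟩, H,
      not_le.1 hc⟩, mem_filter.2 ⟨mem_univ _, vx, ed, R⟩⟩)
  have p := prod_le_prod' lv
  have t1 := H.T1
  have t2 := H.T2
  have t3 := H.T3
  have t4 := H.T4 O (fun d hd => mem_Dt.2 (o1 d hd)) nx (fun d hd ho => by
    obtain ⟨a1, a2, a3⟩ := o2 d (mem_Dt.1 hd) ho
    exact ⟨mem_Dt.2 a1, (R.ker _ (Dt_PP (mem_Dt.2 a1)) _ (su_mem hd)).2 a2,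
      fun hc => a3 ((R.ed_iff (by omega) (mem_Dt.2 a1) hd).1 hc)⟩)
    (fun d hd ho d' hd' ho' => o3 d (mem_Dt.1 hd) ho d' (mem_Dt.1 hd') ho')
  simp only [Num, prod_mul_distrib, prod_pow_eq_pow_sum, prod_const, Nat.card_Icc,
    add_tsub_cancel_right, sum_const, smul_eq_mul] at p
  rw [sum_add_distrib] at t4
  rw [Fintype.card_fin] at t1 t2 t3 t4 hE
  rw [← card_Dt]
  generalize κ.abs.Dt.card = T at *
  generalize ∑ t ∈ Icc 1 J, κ.abs.k t = k at *
  generalize ∑ t ∈ Icc 1 J, (κ.abs.Fr t).card = a at *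
  generalize ∑ t ∈ Icc 1 J, (κ.abs.V1 t).card = v₁ at *
  generalize ∑ t ∈ Icc 1 J, (κ.abs.V2 t).card = v₂ at *
  generalize κ.abs.Ex.card = x at *
  generalize 4 * J ^ 3 = R at *
  have hM : 0 < 5 * M := by omega
  calc 25 ^ T * N' ^ (4 * T) ≤ 5 ^ (4 * (v₁ + R)) * (N' ^ k) ^ 4 := by
        refine Nat.mul_le_mul ?_ ?_
        · rw [show 25 = 5 ^ 2 by norm_num, ← pow_mul]
          exact Nat.pow_le_pow_right (by norm_num) (by omega)
        · rw [← pow_mul]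
          exact Nat.pow_le_pow_right h0 (by omega)
    _ ≤ 5 ^ (4 * (v₁ + R)) * (2 ^ J * K ^ J * (24 ^ a * 27783 ^ (J * x) * M ^ v₁ *
          (5 * M) ^ v₂)) ^ 4 := by
        gcongr
    _ = (2 ^ J * K ^ J * 5 ^ R) ^ 4 * 27783 ^ (4 * (J * x)) * 24 ^ (4 * a) *
          (5 * M) ^ (4 * (v₁ + v₂)) := by
        simp only [mul_pow, pow_mul, pow_add, mul_comm 4]
        ring
    _ ≤ (2 ^ J * K ^ J * 5 ^ R) ^ 4 * 27783 ^ (4 * (J * R)) * 24 ^ T *
          (5 * M) ^ (4 * (T + O.card)) := by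
        gcongr <;> first | norm_num | omega
    _ = _ := by
        simp only [mul_pow, pow_mul, mul_comm 4]
        ring

end Vale.Agent.P201
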